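import Mathlib

/-!
# P181: splitting the gaps of a partition proportionally
-/

set_option autoImplicit false

namespace Vale.Agent.P181.FR

/-- Proportional splitting: all gaps but the `i`-th are multiples of `i`. -/
theorem split13 {m i : ℕ} (hi : 1 ≤ i) (him : i ≤ m) (g : ℕ → ℕ) {S T : ℕ}
    (hS : ∑ j ∈ Finset.Icc 1 m, j * g j = S) (hS0 : 0 < S) (hTS : T ≤ S) (hdiv : i ∣ T)
    (hbig : T * g i + m ^ 2 * S ≤ S * g i) :
    ∃ g0 g1 : ℕ → ℕ, (∀ j, j ∈ Finset.Icc 1 m → g0 j + g1 j = g j) ∧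
      ∑ j ∈ Finset.Icc 1 m, j * g0 j = T ∧ T * g i ≤ S * g0 i ∧
      S * g0 i ≤ T * g i + m ^ 2 * S := by
  have hmem : i ∈ Finset.Icc 1 m := Finset.mem_Icc.mpr ⟨hi, him⟩
  obtain ⟨E, hE⟩ : ∃ E, E = (Finset.Icc 1 m).erase i := ⟨_, rfl⟩
  obtain ⟨q, hq⟩ : ∃ q : ℕ → ℕ, ∀ j, q j = (T * g j) / (S * i) := ⟨_, fun _ => rfl⟩
  have hSi : 0 < S * i := Nat.mul_pos hS0 hi
  have hq1 : ∀ j, S * (i * q j) ≤ T * g j := by
    intro j
    have := Nat.mul_div_le (T * g j) (S * i)
    rw [← hq] at this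
    calc S * (i * q j) = S * i * q j := by ring
      _ ≤ T * g j := this
  have hq2 : ∀ j, T * g j ≤ S * (i * q j) + S * i := by
    intro j
    have := (Nat.lt_mul_div_succ (T * g j) hSi).le
    rw [← hq] at this
    calc T * g j ≤ S * i * (q j + 1) := this
      _ = S * (i * q j) + S * i := by ring
  obtain ⟨U, hU⟩ : ∃ U, U = ∑ j ∈ E, j * q j := ⟨_, rfl⟩
  have hsplit : i * g i + ∑ j ∈ E, j * g j = S := by
    rw [← hS, hE]
    exact Finset.add_sum_erase _ (fun j => j * g j) hmem
  -- `S * (i * U) + T * (i * g i) ≤ T * S`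
  have hUle : S * (i * U) + T * (i * g i) ≤ T * S := by
    have h1 : S * (i * U) ≤ ∑ j ∈ E, j * (T * g j) := by
      rw [hU, Finset.mul_sum, Finset.mul_sum]
      refine Finset.sum_le_sum (fun j _ => ?_)
      calc S * (i * (j * q j)) = j * (S * (i * q j)) := by ring
        _ ≤ j * (T * g j) := Nat.mul_le_mul_left _ (hq1 j)
    have h2 : ∑ j ∈ E, j * (T * g j) = T * ∑ j ∈ E, j * g j := by
      rw [Finset.mul_sum]
      exact Finset.sum_congr rfl (fun j _ => by ring)
    calc S * (i * U) + T * (i * g i) ≤ T * ∑ j ∈ E, j * g j + T * (i * g i) := by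
          rw [← h2]; exact Nat.add_le_add_right h1 _
      _ = T * (i * g i + ∑ j ∈ E, j * g j) := by ring
      _ = T * S := by rw [hsplit]
  have hUge : T * S ≤ S * (i * U) + S * i * m ^ 2 + T * (i * g i) := by
    have h1 : ∑ j ∈ E, j * (T * g j) ≤ ∑ j ∈ E, j * (S * (i * q j) + S * i) :=
      Finset.sum_le_sum (fun j _ => Nat.mul_le_mul_left _ (hq2 j))
    have h2 : ∑ j ∈ E, j * (T * g j) = T * ∑ j ∈ E, j * g j := by
      rw [Finset.mul_sum]
      exact Finset.sum_congr rfl (fun j _ => by ring)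
    have h3 : ∑ j ∈ E, j * (S * (i * q j) + S * i) = S * (i * U) + S * i * ∑ j ∈ E, j := by
      rw [hU, Finset.mul_sum, Finset.mul_sum, Finset.mul_sum, ← Finset.sum_add_distrib]
      exact Finset.sum_congr rfl (fun j _ => by ring)
    have h4 : ∑ j ∈ E, j ≤ m ^ 2 := by
      calc ∑ j ∈ E, j ≤ ∑ j ∈ Finset.Icc 1 m, j := by
            rw [hE]
            exact Finset.sum_le_sum_of_subset (Finset.erase_subset _ _)
        _ ≤ ∑ _j ∈ Finset.Icc 1 m, m :=
            Finset.sum_le_sum (fun j hj => (Finset.mem_Icc.mp hj).2)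
        _ = m ^ 2 := by simp [sq]
    calc T * S = T * (i * g i) + T * ∑ j ∈ E, j * g j := by rw [← hsplit]; ring
      _ ≤ T * (i * g i) + (S * (i * U) + S * i * ∑ j ∈ E, j) := by
          rw [← h2, ← h3]; exact Nat.add_le_add_left h1 _
      _ ≤ T * (i * g i) + (S * (i * U) + S * i * m ^ 2) := by gcongr
      _ = S * (i * U) + S * i * m ^ 2 + T * (i * g i) := by ring
  obtain ⟨T', rfl⟩ := hdiv
  have hUT : U ≤ T' := by
    have h1 : S * (i * U) ≤ S * (i * T') := by
      calc S * (i * U) ≤ i * T' * S := by omega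
        _ = S * (i * T') := by ring
    exact Nat.le_of_mul_le_mul_left (Nat.le_of_mul_le_mul_left h1 hS0) hi
  obtain ⟨V, hV⟩ : ∃ V, T' = U + V := ⟨T' - U, by omega⟩
  have hV1 : i * T' * g i ≤ S * V := by
    have h1 : S * (i * U) + i * T' * (i * g i) ≤ S * (i * U) + i * (S * V) := by
      calc S * (i * U) + i * T' * (i * g i) ≤ i * T' * S := hUle
        _ = S * (i * U) + i * (S * V) := by rw [hV]; ring
    have h2 : i * (i * T' * g i) ≤ i * (S * V) := by
      have h3 : i * (i * T' * g i) = i * T' * (i * g i) := by ring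
      omega
    exact Nat.le_of_mul_le_mul_left h2 hi
  have hV2 : S * V ≤ i * T' * g i + m ^ 2 * S := by
    have h1 : S * (i * U) + i * (S * V) ≤
        S * (i * U) + S * i * m ^ 2 + i * T' * (i * g i) := by
      calc S * (i * U) + i * (S * V) = i * T' * S := by rw [hV]; ring
        _ ≤ _ := hUge
    have h2 : i * (S * V) ≤ i * (i * T' * g i + m ^ 2 * S) := by
      have h3 : i * (i * T' * g i + m ^ 2 * S) = S * i * m ^ 2 + i * T' * (i * g i) := by ring
      omega
    exact Nat.le_of_mul_le_mul_left h2 hi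
  have hVg : V ≤ g i := by
    have h1 : S * V ≤ S * g i := hV2.trans hbig
    exact Nat.le_of_mul_le_mul_left h1 hS0
  refine ⟨fun j => if j = i then V else i * q j, fun j => if j = i then g i - V else g j - i * q j,
    ?_, ?_, ?_, ?_⟩
  · intro j _
    show (if j = i then V else i * q j) + (if j = i then g i - V else g j - i * q j) = g j
    by_cases hj : j = i
    · rw [if_pos hj, if_pos hj, hj]
      omega
    · rw [if_neg hj, if_neg hj]
      have h1 : S * (i * q j) ≤ S * g j := (hq1 j).trans (Nat.mul_le_mul_right _ hTS)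
      have h2 := Nat.le_of_mul_le_mul_left h1 hS0
      omega
  · rw [← Finset.add_sum_erase _ _ hmem]
    simp only [if_true]
    have h1 : ∑ j ∈ (Finset.Icc 1 m).erase i, j * (if j = i then V else i * q j) = i * U := by
      rw [hU, hE, Finset.mul_sum]
      refine Finset.sum_congr rfl (fun j hj => ?_)
      rw [if_neg (Finset.ne_of_mem_erase hj)]
      ring
    rw [h1, hV]
    ring
  · simp only [if_true]
    exact hV1
  · simp only [if_true]
    exact hV2

end Vale.Agent.P181.FR
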