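import Vale.Agent.P181.R2.H130.SymPos
import Vale.Agent.P181.R2.H130.Split13
import Vale.Agent.P181.R2.H182.PtMul
import Vale.Agent.P181.R2.H959.FMul

/-!
# P181, row W13: the assembly with natural numbers
-/

set_option autoImplicit false

open scoped TensorProduct

namespace Vale.Agent.P181.FR

open Vale.Agent.P181 Vale.Agent.P181.H280

lemma gw_congr_add {m : ℕ} {g g0 g1 : ℕ → ℕ} (h : ∀ j, j ∈ Finset.Icc 1 m → g0 j + g1 j = g j) :
    gw m g0 + gw m g1 = gw m g := by
  funext k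
  rw [Pi.add_apply]
  unfold gw
  rw [← Finset.sum_add_distrib]
  refine Finset.sum_congr rfl (fun j hj => ?_)
  rw [Finset.mem_Ioc] at hj
  exact h j (Finset.mem_Icc.mpr ⟨by omega, hj.2⟩)

/-- The step with a rich module at the weight `4 c R ω_i`. -/
theorem core13 {m i a0 : ℕ} (hi : 3 ≤ i) (him : i ≤ m)
    (HP : ∀ (a B : ℕ) (g : ℕ → ℕ), a0 ≤ a → 3 * (m + 1) * a ≤ g i →
      ∑ j ∈ Finset.Icc 1 m, j * g j = a * B → Pos B a m (gw m g))
    {a b c R X : ℕ} (g : ℕ → ℕ) (hsum : ∑ j ∈ Finset.Icc 1 m, j * g j = a * b)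
    (hup : plethMult a b m (gw m g) ≤ X)
    (hrich : X ≤ plethMult (2 * i * R) (2 * c) m ((4 * c * R) • om m i))
    (h1 : a0 + 2 * c ≤ a) (h2 : 4 * i * R ≤ b) (h4 : a ≤ R) (ha : 0 < a)
    (h3 : 4 * c * R + 6 * (m + 1) * a + 2 * m ^ 2 + (m + 1) * b ≤ g i) :
    plethMult a b m (gw m g) ≤ plethMult b a m (gw m g) := by
  obtain ⟨e, rfl⟩ : ∃ e, a = e + 2 * c := ⟨a - 2 * c, by omega⟩
  obtain ⟨a, ha'⟩ : ∃ a, a = e + 2 * c := ⟨_, rfl⟩
  rw [← ha'] at h1 h4 ha h3 hsum hup ⊢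
  have hK : 4 * c * R ≤ g i := by omega
  obtain ⟨g', hg'⟩ : ∃ g' : ℕ → ℕ, g' = Function.update g i (g i - 4 * c * R) := ⟨_, rfl⟩
  have hg'i : g' i + 4 * c * R = g i := by
    rw [hg', Function.update_self]
    omega
  obtain ⟨B1, hB1⟩ : ∃ B1, b = 2 * i * R + B1 := ⟨b - 2 * i * R, by
    have : 2 * i * R ≤ 4 * i * R := Nat.mul_le_mul_right _ (by omega)
    omega⟩
  have hs := sum_update (show 1 ≤ i by omega) him g hK
  rw [← hg', hsum] at hs
  obtain ⟨S, hS⟩ : ∃ S, ∑ j ∈ Finset.Icc 1 m, j * g' j = S := ⟨_, rfl⟩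
  rw [hS] at hs
  obtain ⟨T, hT⟩ : ∃ T, T = 2 * i * R * e := ⟨_, rfl⟩
  have hi0 : 0 < i := by omega
  have hR0 : 0 < R := lt_of_lt_of_le ha h4
  have hb0 : 0 < b := by
    have : 0 < 2 * i * R := by positivity
    omega
  -- `S + i (4 c R) = a b`, `2 T ≤ S`
  have h2T : 2 * T ≤ S := by
    have e1 : a * (4 * i * R) ≤ a * b := Nat.mul_le_mul_left _ h2
    have e2 : a * (4 * i * R) = 2 * T + 2 * (i * (4 * c * R)) := by
      rw [ha', hT]; ring
    omega
  have hS0 : 0 < S := by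
    rcases Nat.eq_zero_or_pos e with he | he
    · have e1 : a * (4 * i * R) ≤ a * b := Nat.mul_le_mul_left _ h2
      have e2 : a * (4 * i * R) = 2 * (i * (4 * c * R)) := by
        rw [ha', he]; ring
      have e3 : 0 < a * (4 * i * R) := by positivity
      omega
    · have : 0 < T := by rw [hT]; positivity
      omega
  have hdiv : i ∣ T := ⟨2 * R * e, by rw [hT]; ring⟩
  have hG1 : 6 * (m + 1) * a + 2 * m ^ 2 + (m + 1) * b ≤ g' i := by omega
  have hbig : T * g' i + m ^ 2 * S ≤ S * g' i := by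
    have e1 : 2 * (T * g' i) ≤ S * g' i := by
      calc 2 * (T * g' i) = 2 * T * g' i := by ring
        _ ≤ S * g' i := Nat.mul_le_mul_right _ h2T
    have e2 : 2 * (m ^ 2 * S) ≤ S * g' i := by
      calc 2 * (m ^ 2 * S) = S * (2 * m ^ 2) := by ring
        _ ≤ S * g' i := Nat.mul_le_mul_left _ (by omega)
    omega
  obtain ⟨g0, g1, hadd, hsum0, hlow, hupp⟩ := split13 (show 1 ≤ i by omega) him g' hS hS0
    (by omega) hdiv hbig
  have hmem : i ∈ Finset.Icc 1 m := Finset.mem_Icc.mpr ⟨by omega, him⟩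
  have hsum1 : ∑ j ∈ Finset.Icc 1 m, j * g1 j = a * B1 := by
    have e1 : ∑ j ∈ Finset.Icc 1 m, j * g0 j + ∑ j ∈ Finset.Icc 1 m, j * g1 j = S := by
      rw [← hS, ← Finset.sum_add_distrib]
      refine Finset.sum_congr rfl (fun j hj => ?_)
      rw [← Nat.mul_add, hadd j hj]
    have e2 : a * b = T + i * (4 * c * R) + a * B1 := by
      rw [hB1, hT, ha']; ring
    omega
  -- the two positive vectors
  have hp0 : Pos (2 * i * R) e m (gw m g0) := by
    refine HP e (2 * i * R) g0 (by omega) ?_ (by rw [hsum0, hT]; ring)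
    have e1 : S * (3 * (m + 1) * e) ≤ S * g0 i := by
      refine le_trans ?_ hlow
      have e2 : S ≤ a * b := by omega
      have e3 : a * b ≤ R * b := Nat.mul_le_mul_right _ h4
      have e4 : (m + 1) * b * 3 ≤ 2 * i * g' i := by
        calc (m + 1) * b * 3 ≤ g' i * 3 := Nat.mul_le_mul_right _ (by omega)
          _ ≤ g' i * (2 * i) := Nat.mul_le_mul_left _ (by omega)
          _ = 2 * i * g' i := by ring
      calc S * (3 * (m + 1) * e) ≤ (R * b) * (3 * (m + 1) * e) :=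
            Nat.mul_le_mul_right _ (e2.trans e3)
        _ = (R * e) * ((m + 1) * b * 3) := by ring
        _ ≤ (R * e) * (2 * i * g' i) := Nat.mul_le_mul_left _ e4
        _ = T * g' i := by rw [hT]; ring
    exact Nat.le_of_mul_le_mul_left e1 hS0
  have hp1 : Pos B1 a m (gw m g1) := by
    refine HP a B1 g1 (by omega) ?_ hsum1
    have e1 := hadd i hmem
    have e2 : S * (3 * (m + 1) * a) ≤ S * g1 i := by
      have e3 : S * g' i = S * g0 i + S * g1 i := by rw [← e1]; ring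
      have e4 : 2 * (T * g' i) ≤ S * g' i := by
        calc 2 * (T * g' i) = 2 * T * g' i := by ring
          _ ≤ S * g' i := Nat.mul_le_mul_right _ h2T
      have e5 : S * (6 * (m + 1) * a + 2 * m ^ 2) ≤ S * g' i :=
        Nat.mul_le_mul_left _ (by omega)
      have e6 : S * (6 * (m + 1) * a + 2 * m ^ 2) =
          2 * (S * (3 * (m + 1) * a)) + 2 * (m ^ 2 * S) := by ring
      omega
    exact Nat.le_of_mul_le_mul_left e2 hS0
  have hfin : gw m g0 + (4 * c * R) • om m i + gw m g1 = gw m g := by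
    rw [← gw_update him g hK, ← hg', ← gw_congr_add hadd]
    abel
  calc plethMult a b m (gw m g) ≤ X := hup
    _ ≤ plethMult (2 * i * R) (2 * c) m ((4 * c * R) • om m i) := hrich
    _ ≤ plethMult (2 * i * R) (e + 2 * c) m (gw m g0 + (4 * c * R) • om m i) := plethMult_pt hp0
    _ ≤ plethMult (2 * i * R + B1) (e + 2 * c) m
        (gw m g0 + (4 * c * R) • om m i + gw m g1) := plethMult_mul (by rw [← ha']; exact hp1)
    _ = plethMult b a m (gw m g) := by rw [hfin, ← hB1, ← ha']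

end Vale.Agent.P181.FR
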