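import Vale.Agent.P181.R2.H207.Final

/-! Row T4 of P181.FewRowsInterior (helper130). -/

set_option autoImplicit false

open scoped TensorProduct

namespace Vale.Agent.P181.FR

open Vale.Agent.P181 Vale.Agent.P181.H280

/-- `core_b` from R15 (`plethMult_ptmul`). -/
theorem core_b_of (plethMult_ptmul : ∀ {B e c m : ℕ} {lam mu : Fin m → ℕ}, Pos B e m mu →
      plethMult B c m lam ≤ plethMult B (e + c) m (mu + lam)) {n a b c : ℕ} (L : ℕ)
    (hL : ∀ lam : Fin (n + 3) → ℕ, plethMult a b (n + 3) lam ≤ L) (hL0 : 0 < L)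
    (hD : L * (b * c + 1) ^ ((n + 3) * (n + 3) + (n + 3)) ≤ Module.finrank ℂ (Pleth b c (n + 3)))
    (hc : c + (n + 3) ≤ a) (lam : Fin (n + 3) → ℕ) (hsum : ∑ i, lam i = a * b)
    (hl0 : lam 1 + c * b + b + 4 * (n + 3) ^ 2 * a ≤ lam 0)
    (hl : ∀ i : Fin (n + 1), lam i.succ.succ + c * b + (n + 3) ^ 3 + 3 ≤ lam i.succ.castSucc)
    (hlast : c * b ≤ lam (Fin.last _)) :
    plethMult a b (n + 3) lam ≤ plethMult b a (n + 3) lam := by
  obtain ⟨lam', hr⟩ := rich (b := b) (a := c) (m := n + 3) (⊤ : Submodule ℂ (Pleth b c (n + 3)))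
    (fun _ _ _ _ => Submodule.mem_top)
  have hF : L ≤ plethMult b c (n + 3) lam' := by
    rw [top_inf_eq, finrank_top] at hr
    have h1 := hD.trans hr
    rw [Nat.mul_comm] at h1
    exact Nat.le_of_mul_le_mul_left h1 (by positivity)
  have hne : hwSpace lam' (plethAct b c (n + 3)) ≠ ⊥ := by
    intro h
    rw [plethMult, h, finrank_bot] at hF
    omega
  obtain ⟨x, hx, hx0⟩ := Submodule.exists_mem_ne_zero_of_ne_bot hne
  have hs' : ∑ i, lam' i = b * c := hw_sum hx hx0
  have hle : ∀ i, lam' i ≤ c * b := by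
    intro i
    rw [Nat.mul_comm, ← hs']
    exact Finset.single_le_sum (fun _ _ => Nat.zero_le _) (Finset.mem_univ _)
  have hst : ∀ (k : ℕ) (hk : k + 2 < n + 3), lam ⟨k + 2, hk⟩ + c * b + (n + 3) ^ 3 + 3 ≤
      lam ⟨k + 1, by omega⟩ := fun k hk => hl ⟨k, by omega⟩
  have hanti0 := anti_of_step lam (fun k hk => by
    have := hst k hk
    omega)
  have hbig : ∀ i, c * b ≤ lam i := by
    have h1 : ∀ i : Fin (n + 3), 1 ≤ i → c * b ≤ lam i := fun i hi =>
      hlast.trans (hanti0 i (Fin.last _) hi (Fin.le_last _))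
    intro i
    rcases Fin.eq_zero_or_eq_succ i with h | ⟨j, h⟩
    · rw [h]
      have := h1 1 le_rfl
      omega
    · apply h1
      rw [h, Fin.le_def, Fin.val_one, Fin.val_succ]
      omega
  let mu : Fin (n + 3) → ℕ := fun i => lam i - lam' i
  have hmu : mu + lam' = lam := by
    funext i
    have h1 := hle i
    have h2 := hbig i
    simp only [mu, Pi.add_apply]
    omega
  have hmusum : ∑ i, mu i = (a - c) * b := by
    have h1 : ∑ i, mu i + ∑ i, lam' i = ∑ i, lam i := by
      rw [← Finset.sum_add_distrib]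
      exact Finset.sum_congr rfl (fun i _ => congrFun hmu i)
    rw [hsum, hs'] at h1
    have h2 : (a - c) * b + b * c = a * b := by
      rw [Nat.mul_comm b c, ← Nat.add_mul, Nat.sub_add_cancel (by omega)]
    omega
  have hmul : ∀ i, mu i ≤ lam i := fun i => Nat.sub_le _ _
  have hmug : ∀ i, lam i ≤ mu i + c * b := by
    intro i
    have h1 := hle i
    simp only [mu]
    omega
  have hpos : Pos b (a - c) (n + 3) mu := by
    refine pos_of mu hmusum (by omega) ?_ ?_ ?_
    · have h1 := hmul 1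
      have h2 := hmug 0
      have h3 : 4 * (n + 3) ^ 2 * (a - c) ≤ 4 * (n + 3) ^ 2 * a :=
        Nat.mul_le_mul_left _ (Nat.sub_le _ _)
      omega
    · have h1 := hmul 2
      have h2 := hmug 1
      have h3 : lam 2 + c * b + (n + 3) ^ 3 + 3 ≤ lam 1 := hl 0
      omega
    · refine anti_of_step mu (fun k hk => ?_)
      have h1 := hmul ⟨k + 2, hk⟩
      have h2 := hmug ⟨k + 1, by omega⟩
      have h3 := hst k hk
      omega
  have h1 := plethMult_ptmul (c := c) (lam := lam') hpos
  rw [hmu, Nat.sub_add_cancel (by omega)] at h1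
  exact (hL lam).trans (hF.trans h1)

end Vale.Agent.P181.FR
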