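import Mathlib

/-!
# P181, row Y4: the numbers
-/

set_option autoImplicit false

namespace Vale.Agent.P181.FR

namespace Y4N

/-- Floors: `x / 2 ≤ ⌊x⌋` for `1 ≤ x`. -/
lemma half_floor {x : ℝ} (hx : 1 ≤ x) : x / 2 ≤ ⌊x⌋₊ := by
  have h1 : x < ⌊x⌋₊ + 1 := Nat.lt_floor_add_one x
  have h2 : (1 : ℝ) ≤ ⌊x⌋₊ := by
    exact_mod_cast Nat.one_le_floor_iff x |>.mpr hx
  linarith

/-- One of the two minima. -/
lemma min_choice {x y : ℝ} (hx : 2 ≤ x) (hy : 2 ≤ y) :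
    ∃ h : ℕ, ((h : ℝ) + 1 ≤ x) ∧ ((h : ℝ) + 1 ≤ y) ∧ (x / 4 ≤ h ∨ y / 4 ≤ h) := by
  obtain ⟨H, hH⟩ : ∃ H : ℕ, H = ⌊min x y⌋₊ := ⟨_, rfl⟩
  have h2 : 2 ≤ min x y := le_min hx hy
  have h3 : (H : ℝ) ≤ min x y := by rw [hH]; exact Nat.floor_le (by linarith)
  have h4 : min x y / 2 ≤ H := by rw [hH]; exact half_floor (by linarith)
  have h5 : 2 ≤ H := by
    rw [hH]
    exact Nat.le_floor (by exact_mod_cast h2)
  refine ⟨H - 1, ?_, ?_, ?_⟩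
  · rw [Nat.cast_sub (by omega)]
    push_cast
    have := h3.trans (min_le_left x y)
    linarith
  · rw [Nat.cast_sub (by omega)]
    push_cast
    have := h3.trans (min_le_right x y)
    linarith
  · have h6 : (H : ℝ) / 2 ≤ ((H - 1 : ℕ) : ℝ) := by
      rw [Nat.cast_sub (by omega)]
      push_cast
      have : (2 : ℝ) ≤ H := by exact_mod_cast h5
      linarith
    rcases min_choice' x y with h | h
    · left
      rw [h] at h4
      linarith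
    · right
      rw [h] at h4
      linarith
where
  min_choice' (x y : ℝ) : min x y = x ∨ min x y = y := by
    rcases le_total x y with h | h
    · left; exact min_eq_left h
    · right; exact min_eq_right h

section

variable {a σ N ρ i R s g2 gi : ℝ} (ha : 1 ≤ a) (hσ1 : 1 ≤ σ) (hN : 1 ≤ N) (hρ : 1 ≤ ρ)
  (hi : 3 ≤ i) (hR : R = ρ * a) (hs0 : 0 ≤ s) (hs : s ≤ 2 * σ)
  (hσ : 2048 * N ^ 2 * ρ ≤ σ) (haσ : σ * σ ≤ a)
  (hg2 : 2048 * i * N ^ 2 * ρ ^ 3 * (a * σ) ≤ g2)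
  (hgi : 2048 * i * N ^ 2 * ρ ^ 3 * (a * σ) ≤ gi)
  (hgg : 2048 * i * N ^ 2 * ρ ^ 3 * (a ^ 3 * σ) ≤ g2 * gi)

include ha hσ1 hN hρ hR

lemma Rs_le (hs : s ≤ 2 * σ) : R * s ≤ 2 * ρ * a * σ := by
  rw [hR]
  calc ρ * a * s ≤ ρ * a * (2 * σ) := mul_le_mul_of_nonneg_left hs (by positivity)
    _ = 2 * ρ * a * σ := by ring

include hσ haσ in
lemma c1 : 2 * ρ * a * σ ≤ (a / (8 * N) / 4) * (a / (8 * N) / 4) := by
  have : (a / (8 * N) / 4) * (a / (8 * N) / 4) = a * a / (1024 * N ^ 2) := by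
    field_simp
    ring
  rw [this, le_div_iff₀ (by positivity)]
  have h3 : 2048 * N ^ 2 * ρ * σ ≤ a :=
    (mul_le_mul_of_nonneg_right hσ (by positivity)).trans haσ
  calc 2 * ρ * a * σ * (1024 * N ^ 2) = a * (2048 * N ^ 2 * ρ * σ) := by ring
    _ ≤ a * a := mul_le_mul_of_nonneg_left h3 (by positivity)

include hi hgi in
lemma c2 : 2 * ρ * a * σ ≤ (a / (8 * N) / 4) * (gi / (8 * N * R) / 4) := by
  have h0 : (a / (8 * N) / 4) * (gi / (8 * N * R) / 4) = gi / (1024 * N ^ 2 * ρ) := by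
    rw [hR]
    field_simp
    ring
  rw [h0, le_div_iff₀ (by positivity)]
  have h1 : 1 ≤ i * ρ := by nlinarith
  calc 2 * ρ * a * σ * (1024 * N ^ 2 * ρ) = 2048 * N ^ 2 * ρ ^ 2 * (a * σ) * 1 := by ring
    _ ≤ 2048 * N ^ 2 * ρ ^ 2 * (a * σ) * (i * ρ) := mul_le_mul_of_nonneg_left h1 (by positivity)
    _ = 2048 * i * N ^ 2 * ρ ^ 3 * (a * σ) := by ring
    _ ≤ gi := hgi

include hi hg2 in
lemma c3 : 2 * ρ * a * σ ≤ (g2 / (2 * i * N * R) / 4) * (a / (8 * N) / 4) := by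
  have h0 : (g2 / (2 * i * N * R) / 4) * (a / (8 * N) / 4) = g2 / (256 * i * N ^ 2 * ρ) := by
    rw [hR]
    field_simp
    ring
  rw [h0, le_div_iff₀ (by positivity)]
  have h1 : 512 ≤ 2048 * ρ := by linarith
  calc 2 * ρ * a * σ * (256 * i * N ^ 2 * ρ) = i * N ^ 2 * ρ ^ 2 * (a * σ) * 512 := by ring
    _ ≤ i * N ^ 2 * ρ ^ 2 * (a * σ) * (2048 * ρ) := mul_le_mul_of_nonneg_left h1 (by positivity)
    _ = 2048 * i * N ^ 2 * ρ ^ 3 * (a * σ) := by ring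
    _ ≤ g2 := hg2

include hi hgg in
lemma c4 : 2 * ρ * a * σ ≤ (g2 / (2 * i * N * R) / 4) * (gi / (8 * N * R) / 4) := by
  have h0 : (g2 / (2 * i * N * R) / 4) * (gi / (8 * N * R) / 4) =
      (g2 * gi) / (256 * i * N ^ 2 * ρ ^ 2 * a ^ 2) := by
    rw [hR]
    field_simp
    ring
  rw [h0, le_div_iff₀ (by positivity)]
  calc 2 * ρ * a * σ * (256 * i * N ^ 2 * ρ ^ 2 * a ^ 2)
      = i * N ^ 2 * ρ ^ 3 * (a ^ 3 * σ) * 512 := by ring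
    _ ≤ i * N ^ 2 * ρ ^ 3 * (a ^ 3 * σ) * 2048 :=
      mul_le_mul_of_nonneg_left (by norm_num) (by positivity)
    _ = 2048 * i * N ^ 2 * ρ ^ 3 * (a ^ 3 * σ) := by ring
    _ ≤ g2 * gi := hgg

include hi hg2 in
lemma d1 : 2 ≤ g2 / (2 * i * N * R) := by
  have hi0 : 0 < i := by linarith
  rw [le_div_iff₀ (by rw [hR]; positivity), hR]
  have h1 : 4 ≤ 2048 * N * ρ ^ 2 * σ := by
    have h2 : 1 ≤ N * ρ ^ 2 * σ := by
      have h3 : 1 ≤ ρ ^ 2 := one_le_pow₀ hρ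
      have h4 : 1 ≤ N * ρ ^ 2 := by nlinarith
      nlinarith
    linarith
  calc 2 * (2 * i * N * (ρ * a)) = i * N * ρ * a * 4 := by ring
    _ ≤ i * N * ρ * a * (2048 * N * ρ ^ 2 * σ) := mul_le_mul_of_nonneg_left h1 (by positivity)
    _ = 2048 * i * N ^ 2 * ρ ^ 3 * (a * σ) := by ring
    _ ≤ g2 := hg2

include hi hgi in
lemma d2 : 2 ≤ gi / (8 * N * R) := by
  rw [le_div_iff₀ (by rw [hR]; positivity), hR]
  have h1 : 16 ≤ 2048 * i * N * ρ ^ 2 * σ := by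
    have h2 : 1 ≤ N * ρ ^ 2 * σ := by
      have h3 : 1 ≤ ρ ^ 2 := one_le_pow₀ hρ
      have h4 : 1 ≤ N * ρ ^ 2 := by nlinarith
      nlinarith
    have h5 : 1 ≤ i * (N * ρ ^ 2 * σ) := by nlinarith
    calc (16 : ℝ) ≤ 2048 * (i * (N * ρ ^ 2 * σ)) := by linarith
      _ = 2048 * i * N * ρ ^ 2 * σ := by ring
  calc 2 * (8 * N * (ρ * a)) = N * ρ * a * 16 := by ring
    _ ≤ N * ρ * a * (2048 * i * N * ρ ^ 2 * σ) := mul_le_mul_of_nonneg_left h1 (by positivity)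
    _ = 2048 * i * N ^ 2 * ρ ^ 3 * (a * σ) := by ring
    _ ≤ gi := hgi

include hi hs0 hs hσ haσ hg2 hgi hgg in
/-- The choice of `h1` and `h2`. -/
theorem choose_h (ha16 : 16 * N ≤ a) : ∃ h1 h2 : ℕ, ((h1 : ℝ) + 1) * (8 * N) ≤ a ∧
    ((h2 : ℝ) + 1) * (8 * N) ≤ a ∧ ((h1 : ℝ) + 1) * (2 * i * N * R) ≤ g2 ∧
    ((h2 : ℝ) + 1) * (8 * N * R) ≤ gi ∧ R * s ≤ (h1 : ℝ) * h2 := by
  have hi0 : 0 < i := by linarith
  have hR0 : 0 < R := by rw [hR]; positivity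
  have hx : 2 ≤ a / (8 * N) := by
    rw [le_div_iff₀ (by positivity)]
    linarith
  have hy1 := d1 ha hσ1 hN hρ hi hR hg2
  have hy2 := d2 ha hσ1 hN hρ hi hR hgi
  obtain ⟨h1, h1x, h1y, h1l⟩ := min_choice hx hy1
  obtain ⟨h2, h2x, h2y, h2l⟩ := min_choice hx hy2
  have k1 := c1 ha hσ1 hN hρ hR hσ haσ
  have k2 := c2 ha hσ1 hN hρ hi hR hgi
  have k3 := c3 ha hσ1 hN hρ hi hR hg2
  have k4 := c4 ha hσ1 hN hρ hi hR hgg
  have hx0 : 0 ≤ a / (8 * N) / 4 := by linarith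
  have hy10 : 0 ≤ g2 / (2 * i * N * R) / 4 := by linarith
  have hy20 : 0 ≤ gi / (8 * N * R) / 4 := by linarith
  refine ⟨h1, h2, ?_, ?_, ?_, ?_, ?_⟩
  · rwa [le_div_iff₀ (by positivity)] at h1x
  · rwa [le_div_iff₀ (by positivity)] at h2x
  · rwa [le_div_iff₀ (by positivity)] at h1y
  · rwa [le_div_iff₀ (by positivity)] at h2y
  · refine (Rs_le ha hσ1 hN hρ hR hs).trans ?_
    rcases h1l with h1l | h1l <;> rcases h2l with h2l | h2l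
    · exact k1.trans (mul_le_mul h1l h2l hx0 (Nat.cast_nonneg _))
    · exact k2.trans (mul_le_mul h1l h2l hy20 (Nat.cast_nonneg _))
    · exact k3.trans (mul_le_mul h1l h2l hx0 (Nat.cast_nonneg _))
    · exact k4.trans (mul_le_mul h1l h2l hy20 (Nat.cast_nonneg _))

end

end Y4N

end Vale.Agent.P181.FR
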