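import Vale.Agent.P181.R2.H959.WDefs
import Vale.Agent.P181.R2.H959.FPow
import Vale.Agent.P181.R2.H207.FinalOf
import Vale.Agent.P181.R2.H130.GapMixNum

/-!
# P181, row Y4 from rows Y2 and Y3
-/

set_option autoImplicit false

open scoped TensorProduct

namespace Vale.Agent.P181.FR

open Vale.Agent.P181 Vale.Agent.P181.H280

namespace Y4N

lemma gw_two {m i : ℕ} (hi : 3 ≤ i) (him : i ≤ m) (x y : ℕ) :
    gw m (fun j => if j = 2 then x else if j = i then y else 0) = x • om m 2 + y • om m i := by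
  funext k
  rw [Pi.add_apply, Pi.smul_apply, Pi.smul_apply, smul_eq_mul, smul_eq_mul]
  unfold gw om
  have h1 : ∀ j, (if j = 2 then x else if j = i then y else 0) =
      (if j = 2 then x else 0) + (if j = i then y else 0) := by
    intro j
    by_cases h2 : j = 2
    · have : j ≠ i := by omega
      rw [if_pos h2, if_pos h2, if_neg this, add_zero]
    · rw [if_neg h2, if_neg h2, zero_add]
  rw [Finset.sum_congr rfl (fun j _ => h1 j), Finset.sum_add_distrib, Finset.sum_ite_eq',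
    Finset.sum_ite_eq']
  congr 1
  · by_cases hk : (k : ℕ) < 2
    · rw [if_pos (Finset.mem_Ioc.mpr ⟨hk, by omega⟩), if_pos hk, mul_one]
    · rw [if_neg (fun h => hk (Finset.mem_Ioc.mp h).1), if_neg hk, mul_zero]
  · by_cases hk : (k : ℕ) < i
    · rw [if_pos (Finset.mem_Ioc.mpr ⟨hk, him⟩), if_pos hk, mul_one]
    · rw [if_neg (fun h => hk (Finset.mem_Ioc.mp h).1), if_neg hk, mul_zero]

lemma sum_two {m i : ℕ} (hi : 3 ≤ i) (him : i ≤ m) (x y : ℕ) :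
    ∑ j ∈ Finset.Icc 1 m, j * (if j = 2 then x else if j = i then y else 0) = 2 * x + i * y := by
  have h1 : ∀ j, j * (if j = 2 then x else if j = i then y else 0) =
      (if j = 2 then 2 * x else 0) + (if j = i then i * y else 0) := by
    intro j
    by_cases h2 : j = 2
    · have : j ≠ i := by omega
      rw [if_pos h2, if_pos h2, if_neg this, add_zero, h2]
    · rw [if_neg h2, if_neg h2, zero_add]
      by_cases h3 : j = i
      · rw [if_pos h3, if_pos h3, h3]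
      · rw [if_neg h3, if_neg h3, mul_zero]
  rw [Finset.sum_congr rfl (fun j _ => h1 j), Finset.sum_add_distrib, Finset.sum_ite_eq',
    Finset.sum_ite_eq', if_pos (Finset.mem_Icc.mpr ⟨by omega, by omega⟩),
    if_pos (Finset.mem_Icc.mpr ⟨by omega, him⟩)]

end Y4N

/-- The conclusion of row Y2. -/
def Y2P (m i : ℕ) : Prop := ∃ N : ℕ, 0 < N ∧ ∀ h1 h2 R s : ℕ,
    R * s ≤ h1 * h2 →
    s ^ R ≤ plethMult (2 * i * R) (2 * N * (h1 + 1) + 2 * N * (h2 + 1)) m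
      ((2 * i * N * (h1 + 1) * R) • om m 2 + (4 * N * (h2 + 1) * R) • om m i)

/-- The conclusion of row Y3. -/
def Y3P (m i : ℕ) : Prop := ∃ K : ℕ, ∀ (a b B c S : ℕ) (u g : ℕ → ℕ),
    i ∣ B → K + c ≤ a → B + K ≤ b → (∀ j, u j ≤ g j) →
    ∑ j ∈ Finset.Icc 1 m, j * u j = c * B → ∑ j ∈ Finset.Icc 1 m, j * g j = a * b →
    u i + K * a ≤ g i → S ≤ plethMult B c m (gw m u) → S ≤ plethMult b a m (gw m g)

/-- The assembly with natural numbers. -/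
theorem Y4N.mix_core {m i N K : ℕ} (hi : 3 ≤ i) (him : i ≤ m)
    (hrich : ∀ h1 h2 R s : ℕ, R * s ≤ h1 * h2 →
      s ^ R ≤ plethMult (2 * i * R) (2 * N * (h1 + 1) + 2 * N * (h2 + 1)) m
        ((2 * i * N * (h1 + 1) * R) • om m 2 + (4 * N * (h2 + 1) * R) • om m i))
    (hcore : ∀ (a b B c S : ℕ) (u g : ℕ → ℕ),
      i ∣ B → K + c ≤ a → B + K ≤ b → (∀ j, u j ≤ g j) →
      ∑ j ∈ Finset.Icc 1 m, j * u j = c * B → ∑ j ∈ Finset.Icc 1 m, j * g j = a * b →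
      u i + K * a ≤ g i → S ≤ plethMult B c m (gw m u) → S ≤ plethMult b a m (gw m g))
    {a b h1 h2 R s : ℕ} (g : ℕ → ℕ) (hsum : ∑ j ∈ Finset.Icc 1 m, j * g j = a * b)
    (hup : plethMult a b m (gw m g) ≤ s ^ R) (hh : R * s ≤ h1 * h2)
    (k1 : K + (2 * N * (h1 + 1) + 2 * N * (h2 + 1)) ≤ a) (k2 : 2 * i * R + K ≤ b)
    (k3 : 2 * i * N * (h1 + 1) * R ≤ g 2) (k4 : 4 * N * (h2 + 1) * R + K * a ≤ g i) :
    plethMult a b m (gw m g) ≤ plethMult b a m (gw m g) := by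
  have hr := hrich h1 h2 R s hh
  refine hup.trans ?_
  obtain ⟨u, hu⟩ : ∃ u : ℕ → ℕ, ∀ j, u j = if j = 2 then 2 * i * N * (h1 + 1) * R else
      if j = i then 4 * N * (h2 + 1) * R else 0 := ⟨_, fun _ => rfl⟩
  have hu' : u = fun j => if j = 2 then 2 * i * N * (h1 + 1) * R else
      if j = i then 4 * N * (h2 + 1) * R else 0 := funext hu
  have h5 : u i = 4 * N * (h2 + 1) * R := by
    rw [hu, if_neg (by omega), if_pos rfl]
  have h6 : u 2 = 2 * i * N * (h1 + 1) * R := by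
    rw [hu, if_pos rfl]
  refine hcore a b (2 * i * R) (2 * N * (h1 + 1) + 2 * N * (h2 + 1)) (s ^ R) u g
    ⟨2 * R, by ring⟩ k1 k2 ?_ ?_ hsum ?_ ?_
  · intro j
    by_cases hj2 : j = 2
    · rw [hj2, h6]; exact k3
    · by_cases hji : j = i
      · rw [hji, h5]; omega
      · rw [hu, if_neg hj2, if_neg hji]
        exact Nat.zero_le _
  · rw [hu', Y4N.sum_two hi him]
    ring
  · rw [h5]; exact k4
  · rw [hu', Y4N.gw_two hi him]
    exact hr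

/-- The bound for the source. -/
theorem Y4N.source {a b m q s : ℕ} (lam : Fin m → ℕ) (hb : b + 1 ≤ a ^ 2) (hs : a ≤ s ^ q) :
    plethMult a b m lam ≤ s ^ (2 * m * q * a) := by
  refine (plethMult_le_pow a b m _).trans ?_
  calc (b + 1) ^ (m * a) ≤ (a ^ 2) ^ (m * a) := Nat.pow_le_pow_left hb _
    _ = a ^ (2 * m * a) := by rw [← pow_mul]; congr 1; ring
    _ ≤ (s ^ q) ^ (2 * m * a) := Nat.pow_le_pow_left hs _
    _ = s ^ (2 * m * q * a) := by rw [← pow_mul]; congr 1; ring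

/-- The root of `a`. -/
theorem Y4N.root {ε : ℝ} {a q M : ℕ} (hq2 : 2 ≤ q) (hqε : 1 / (q : ℝ) ≤ ε) (ha : 1 ≤ a)
    (hM : M ^ q ≤ a) : ∃ σ : ℝ, ∃ s : ℕ, 1 ≤ σ ∧ (M : ℝ) ≤ σ ∧ σ * σ ≤ a ∧ σ ≤ (a : ℝ) ^ ε ∧
      (s : ℝ) ≤ 2 * σ ∧ a ≤ s ^ q := by
  have ha1R : (1 : ℝ) ≤ a := by exact_mod_cast ha
  have ha0R : (0 : ℝ) < a := by linarith
  have hq0 : (q : ℝ) ≠ 0 := by
    have : (2 : ℝ) ≤ q := by exact_mod_cast hq2
    linarith
  obtain ⟨σ, hσ⟩ : ∃ σ : ℝ, σ = (a : ℝ) ^ (1 / (q : ℝ)) := ⟨_, rfl⟩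
  have hσ1 : 1 ≤ σ := by rw [hσ]; exact Real.one_le_rpow ha1R (by positivity)
  have hσ0 : 0 < σ := by linarith
  have hσq : σ ^ q = a := by
    rw [hσ, ← Real.rpow_natCast, ← Real.rpow_mul ha0R.le, one_div, inv_mul_cancel₀ hq0,
      Real.rpow_one]
  refine ⟨σ, ⌈σ⌉₊, hσ1, ?_, ?_, ?_, ?_, ?_⟩
  · by_contra h
    rw [not_le] at h
    have h1 : σ ^ q < (M : ℝ) ^ q := pow_lt_pow_left₀ h hσ0.le (by omega)
    rw [hσq] at h1
    have h3 : (M : ℝ) ^ q ≤ a := by exact_mod_cast hM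
    linarith
  · rw [← hσq]
    calc σ * σ = σ ^ 2 := by ring
      _ ≤ σ ^ q := pow_le_pow_right₀ hσ1 hq2
  · rw [hσ]
    exact Real.rpow_le_rpow_of_exponent_le ha1R hqε
  · have : ((⌈σ⌉₊ : ℕ) : ℝ) < σ + 1 := Nat.ceil_lt_add_one hσ0.le
    linarith
  · have h1 : (a : ℝ) ≤ ((⌈σ⌉₊ : ℕ) : ℝ) ^ q := by
      rw [← hσq]
      exact pow_le_pow_left₀ hσ0.le (Nat.le_ceil σ) q
    exact_mod_cast h1

/-- Row Y4 from rows Y2 and Y3. -/
theorem gap_mix_of {m i : ℕ} (hi : 3 ≤ i) (him : i ≤ m) (Y2 : Y2P m i) (Y3 : Y3P m i)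
    {ε : ℝ} (hε : 0 < ε) :
    ∃ C : ℝ, 0 < C ∧ ∀ (a b : ℕ) (g : ℕ → ℕ), C * a ≤ b →
    ∑ j ∈ Finset.Icc 1 m, j * g j = a * b →
    C * (a : ℝ) ^ (1 + ε) ≤ g 2 → C * (a : ℝ) ^ (1 + ε) ≤ g i →
    C * (a : ℝ) ^ (3 + ε) ≤ (g 2 : ℝ) * g i →
    plethMult a b m (gw m g) ≤ plethMult b a m (gw m g) := by
  obtain ⟨N, hN, hrich⟩ := Y2
  obtain ⟨K, hcore⟩ := Y3
  -- the exponent
  obtain ⟨q, hq⟩ : ∃ q : ℕ, q = ⌈1 / ε⌉₊ + 2 := ⟨_, rfl⟩
  have hq2 : 2 ≤ q := by omega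
  have hqε : 1 / (q : ℝ) ≤ ε := by
    have h1 : 1 / ε ≤ q := by
      have := Nat.le_ceil (1 / ε)
      rw [hq]
      push_cast
      linarith
    have hq0 : (0 : ℝ) < q := by
      have : (2 : ℝ) ≤ q := by exact_mod_cast hq2
      linarith
    rw [div_le_iff₀ hq0]
    rw [div_le_iff₀ hε] at h1
    linarith
  obtain ⟨ρ, hρ⟩ : ∃ ρ : ℕ, ρ = 2 * m * q := ⟨_, rfl⟩
  have hρ1 : 1 ≤ ρ := by
    rw [hρ]
    have : 0 < m := by omega
    have : 0 < 2 * m * q := by positivity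
    omega
  obtain ⟨A1, hA1⟩ : ∃ A1 : ℕ, A1 = (2048 * N ^ 2 * ρ) ^ q + 16 * N + 2 * K + 1 := ⟨_, rfl⟩
  obtain ⟨D, hD⟩ : ∃ D : ℕ, D = 2048 * i * N ^ 2 * ρ ^ 3 := ⟨_, rfl⟩
  obtain ⟨C0, hC0⟩ : ∃ C0 : ℕ, C0 = D + 2 * i * ρ + 2 * K + A1 ^ 2 + 1 := ⟨_, rfl⟩
  refine ⟨C0, by rw [hC0]; positivity, ?_⟩
  intro a b g hab hsum hg2 hgi hg2i
  by_cases hquad : (a - 1) ^ 2 ≤ b
  · exact foulkes_quadratic hquad _
  rw [not_le] at hquad
  have habN : C0 * a ≤ b := by exact_mod_cast hab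
  have ha2 : 2 ≤ a := by
    by_contra h
    have h0 : a - 1 = 0 := by omega
    rw [h0] at hquad
    simp at hquad
  have hA : A1 ≤ a := by
    by_contra h
    rw [not_le] at h
    have h1 : (a - 1) ^ 2 ≤ A1 ^ 2 := Nat.pow_le_pow_left (by omega) 2
    have h2 : A1 ^ 2 ≤ C0 := by rw [hC0]; omega
    have h3 : C0 ≤ C0 * a := Nat.le_mul_of_pos_right _ (by omega)
    omega
  obtain ⟨σ, s, hσ1, hσM, haσ, hσε, hs2, hsq⟩ := Y4N.root (M := 2048 * N ^ 2 * ρ) hq2 hqε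
    (show 1 ≤ a by omega) (by omega)
  have ha1R : (1 : ℝ) ≤ a := by exact_mod_cast (by omega : 1 ≤ a)
  have ha0R : (0 : ℝ) < a := by linarith
  have h1e : (a : ℝ) ^ (1 + ε) = a * (a : ℝ) ^ ε := by
    rw [Real.rpow_add ha0R, Real.rpow_one]
  have h3e : (a : ℝ) ^ (3 + ε) = (a : ℝ) ^ 3 * (a : ℝ) ^ ε := by
    rw [Real.rpow_add ha0R]
    congr 1
    exact_mod_cast Real.rpow_natCast (a : ℝ) 3
  rw [h1e] at hg2 hgi
  rw [h3e] at hg2i
  have hDC : (D : ℝ) ≤ C0 := by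
    have : D ≤ C0 := by rw [hC0]; omega
    exact_mod_cast this
  have hDR : (D : ℝ) = 2048 * i * N ^ 2 * ρ ^ 3 := by rw [hD]; push_cast; ring
  have hCK : 2 * (K : ℝ) ≤ C0 := by
    have : 2 * K ≤ C0 := by rw [hC0]; omega
    exact_mod_cast this
  have hD0 : (0 : ℝ) ≤ D := Nat.cast_nonneg D
  have hC00 : (0 : ℝ) ≤ C0 := Nat.cast_nonneg C0
  have low : ∀ {x y : ℝ}, 0 ≤ x → (C0 : ℝ) * (x * (a : ℝ) ^ ε) ≤ y →
      2048 * i * N ^ 2 * ρ ^ 3 * (x * σ) ≤ y := by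
    intro x y hx hy
    refine le_trans ?_ hy
    rw [← hDR]
    exact mul_le_mul hDC (mul_le_mul_of_nonneg_left hσε hx) (mul_nonneg hx (by linarith)) hC00
  have hgiK : 2 * (K : ℝ) * a ≤ g i := by
    refine le_trans ?_ hgi
    refine mul_le_mul hCK ?_ ha0R.le hC00
    exact le_mul_of_one_le_right ha0R.le (Real.one_le_rpow ha1R hε.le)
  have hRR : ((ρ * a : ℕ) : ℝ) = ρ * a := by push_cast; ring
  have h16 : 16 * (N : ℝ) ≤ a := by
    have : 16 * N ≤ a := by omega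
    exact_mod_cast this
  obtain ⟨h1, h2, n1, n2, n3, n4, n5⟩ := Y4N.choose_h (R := ((ρ * a : ℕ) : ℝ)) (s := s)
    (i := i) (N := N) (ρ := ρ) ha1R hσ1 (by exact_mod_cast hN) (by exact_mod_cast hρ1)
    (by exact_mod_cast hi) hRR (Nat.cast_nonneg s) hs2 (by exact_mod_cast hσM) haσ
    (low ha0R.le hg2) (low ha0R.le hgi) (low (by positivity) hg2i) h16
  refine Y4N.mix_core hi him hrich hcore (R := ρ * a) (s := s) (h1 := h1) (h2 := h2) g hsum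
    ?_ ?_ ?_ ?_ ?_ ?_
  · rw [hρ]
    refine Y4N.source _ ?_ hsq
    have : (a - 1) ^ 2 ≤ a ^ 2 := Nat.pow_le_pow_left (by omega) 2
    omega
  · exact_mod_cast n5
  · have h3 : ((K + (2 * N * (h1 + 1) + 2 * N * (h2 + 1)) : ℕ) : ℝ) ≤ a := by
      push_cast
      have h4 : 2 * K ≤ a := by omega
      have h5 : 2 * (K : ℝ) ≤ a := by exact_mod_cast h4
      linarith
    exact_mod_cast h3
  · refine le_trans ?_ habN
    have h3 : 2 * i * ρ + K ≤ C0 := by rw [hC0]; omega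
    calc 2 * i * (ρ * a) + K ≤ 2 * i * ρ * a + K * a := by
          have h4 : K ≤ K * a := Nat.le_mul_of_pos_right _ (by omega)
          have h5 : 2 * i * (ρ * a) = 2 * i * ρ * a := by ring
          omega
      _ = (2 * i * ρ + K) * a := by ring
      _ ≤ C0 * a := Nat.mul_le_mul_right _ h3
  · have h3 : ((2 * i * N * (h1 + 1) * (ρ * a) : ℕ) : ℝ) ≤ g 2 := by
      calc ((2 * i * N * (h1 + 1) * (ρ * a) : ℕ) : ℝ)
          = ((h1 : ℝ) + 1) * (2 * i * N * ((ρ * a : ℕ) : ℝ)) := by push_cast; ring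
        _ ≤ g 2 := n3
    exact_mod_cast h3
  · have h4 : 2 * ((4 * N * (h2 + 1) * (ρ * a) : ℕ) : ℝ) ≤ g i := by
      calc 2 * ((4 * N * (h2 + 1) * (ρ * a) : ℕ) : ℝ)
          = ((h2 : ℝ) + 1) * (8 * N * ((ρ * a : ℕ) : ℝ)) := by push_cast; ring
        _ ≤ g i := n4
    have h3 : ((4 * N * (h2 + 1) * (ρ * a) + K * a : ℕ) : ℝ) ≤ g i := by
      rw [Nat.cast_add, Nat.cast_mul K a]
      linarith
    exact_mod_cast h3

end Vale.Agent.P181.FR
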