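import Mathlib

/-!
# P181, row G2: the numbers for `b ≥ a ^ (1 + 2 κ)`, the number of rows at most `a ^ κ`
-/

set_option autoImplicit false

namespace Vale.Agent.P181.FR

open Filter Topology

namespace G2

theorem core {z u a b m w : ℝ} (hz : 5 ≤ z) (hu : 768 ≤ u) (huz : u ≤ z) (ha : a = z ^ 20)
    (hm3 : 3 ≤ m) (hmu : m ≤ u) (hb : a * u ^ 2 ≤ b) (hw0 : 0 ≤ w) (hw1 : w ≤ 2 * z ^ 4) :
    2 * (((2 * m + 1) * 5 + 1) * w ^ 3) ≤ a ∧ 2 * ((2 * m + 1) * 5 * w ^ 5) ≤ b ∧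
      ((m + 2) * b + ((2 * m + 1) * 5 + 1) ^ 2 * w ^ 8) * u ≤ a * b := by
  have hz0 : 0 < z := by linarith
  have hu0 : 0 < u := by linarith
  have hN : (2 * m + 1) * 5 + 1 ≤ 12 * u := by linarith
  have hN' : (2 * m + 1) * 5 ≤ 12 * u := by linarith
  have hN0 : 0 ≤ (2 * m + 1) * 5 := by linarith
  have hw3 : w ^ 3 ≤ 8 * z ^ 12 := by
    calc w ^ 3 ≤ (2 * z ^ 4) ^ 3 := pow_le_pow_left₀ hw0 hw1 3
      _ = 8 * z ^ 12 := by ring
  have hw5 : w ^ 5 ≤ 32 * z ^ 20 := by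
    calc w ^ 5 ≤ (2 * z ^ 4) ^ 5 := pow_le_pow_left₀ hw0 hw1 5
      _ = 32 * z ^ 20 := by ring
  have hw8 : w ^ 8 ≤ 256 * z ^ 32 := by
    calc w ^ 8 ≤ (2 * z ^ 4) ^ 8 := pow_le_pow_left₀ hw0 hw1 8
      _ = 256 * z ^ 32 := by ring
  have hz7 : 73728 ≤ z ^ 7 := by
    calc (73728 : ℝ) ≤ 5 ^ 7 := by norm_num
      _ ≤ z ^ 7 := pow_le_pow_left₀ (by norm_num) hz 7
  have ha0 : 0 < a := by rw [ha]; positivity
  have hb0 : 0 < b := lt_of_lt_of_le (by positivity) hb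
  refine ⟨?_, ?_, ?_⟩
  · calc 2 * (((2 * m + 1) * 5 + 1) * w ^ 3) ≤ 2 * ((12 * z) * (8 * z ^ 12)) := by
          refine mul_le_mul_of_nonneg_left ?_ (by norm_num)
          exact mul_le_mul (by linarith) hw3 (by positivity) (by positivity)
      _ = 192 * z ^ 13 := by ring
      _ ≤ z ^ 7 * z ^ 13 := by
          refine mul_le_mul_of_nonneg_right (by linarith) (by positivity)
      _ = a := by rw [ha]; ring
  · calc 2 * ((2 * m + 1) * 5 * w ^ 5) ≤ 2 * ((12 * u) * (32 * z ^ 20)) := by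
          refine mul_le_mul_of_nonneg_left ?_ (by norm_num)
          exact mul_le_mul hN' hw5 (by positivity) (by positivity)
      _ = (768 * u) * a := by rw [ha]; ring
      _ ≤ (u * u) * a := by
          refine mul_le_mul_of_nonneg_right ?_ ha0.le
          exact mul_le_mul_of_nonneg_right hu hu0.le
      _ = a * u ^ 2 := by ring
      _ ≤ b := hb
  · have e1 : (m + 2) * b * u ≤ a * b / 2 := by
      have h1 : (m + 2) * u ≤ a / 2 := by
        calc (m + 2) * u ≤ (2 * z) * z := mul_le_mul (by linarith) huz hu0.le (by linarith)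
          _ = 2 * z ^ 2 := by ring
          _ ≤ (z ^ 7 / 2) * z ^ 2 := by
            refine mul_le_mul_of_nonneg_right (by linarith) (by positivity)
          _ ≤ (z ^ 7 / 2) * z ^ 13 := by
            refine mul_le_mul_of_nonneg_left ?_ (by positivity)
            exact pow_le_pow_right₀ (by linarith) (by norm_num)
          _ = a / 2 := by rw [ha]; ring
      calc (m + 2) * b * u = ((m + 2) * u) * b := by ring
        _ ≤ (a / 2) * b := mul_le_mul_of_nonneg_right h1 hb0.le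
        _ = a * b / 2 := by ring
    have e2 : ((2 * m + 1) * 5 + 1) ^ 2 * w ^ 8 * u ≤ a * b / 2 := by
      calc ((2 * m + 1) * 5 + 1) ^ 2 * w ^ 8 * u ≤ (12 * u) ^ 2 * (256 * z ^ 32) * u := by
            refine mul_le_mul_of_nonneg_right ?_ hu0.le
            refine mul_le_mul ?_ hw8 (by positivity) (by positivity)
            exact pow_le_pow_left₀ (by linarith) hN 2
        _ = 36864 * z ^ 32 * u ^ 2 * u := by ring
        _ ≤ 36864 * z ^ 32 * u ^ 2 * z := mul_le_mul_of_nonneg_left huz (by positivity)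
        _ = (36864 * z ^ 33) * u ^ 2 := by ring
        _ ≤ (z ^ 7 / 2 * z ^ 33) * u ^ 2 := by
            refine mul_le_mul_of_nonneg_right ?_ (by positivity)
            refine mul_le_mul_of_nonneg_right (by linarith) (by positivity)
        _ = a * (a * u ^ 2) / 2 := by rw [ha]; ring
        _ ≤ a * b / 2 := by
            have := mul_le_mul_of_nonneg_left hb ha0.le
            linarith
    calc ((m + 2) * b + ((2 * m + 1) * 5 + 1) ^ 2 * w ^ 8) * u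
        = (m + 2) * b * u + ((2 * m + 1) * 5 + 1) ^ 2 * w ^ 8 * u := by ring
      _ ≤ a * b / 2 + a * b / 2 := add_le_add e1 e2
      _ = a * b := by ring

end G2

/-- Row G2. -/
theorem grow_num2 {κ : ℝ} (h0 : 0 < κ) (h1 : κ < 1 / 20) : ∃ A : ℕ, ∀ n a b : ℕ, A ≤ a →
    (n : ℝ) + 3 ≤ (a : ℝ) ^ κ → (a : ℝ) ^ (1 + 2 * κ) ≤ b → ∃ w : ℕ,
      2 * (((2 * (n + 3) + 1) * 5 + 1) * w ^ 3) ≤ a ∧ a ≤ w ^ 5 ∧
      2 * ((2 * (n + 3) + 1) * 5 * w ^ 5) ≤ b ∧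
      ((n : ℝ) + 5) * b + (((2 * (n + 3) + 1) * 5 + 1) ^ 2 * w ^ 8 : ℕ) ≤
        (a : ℝ) ^ (1 - κ) * b := by
  have hev := ((tendsto_rpow_atTop h0).eventually_ge_atTop (768 : ℝ)).and
    (eventually_ge_atTop ((5 : ℝ) ^ 20))
  obtain ⟨x₀, hx₀⟩ := eventually_atTop.mp hev
  refine ⟨⌈x₀⌉₊, ?_⟩
  intro n a b hA hn hb
  obtain ⟨hu, ha5⟩ := hx₀ (a : ℝ) ((Nat.le_ceil x₀).trans (by exact_mod_cast hA))
  have ha0 : (0 : ℝ) < a := by
    have : (0 : ℝ) < 5 ^ 20 := by norm_num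
    linarith
  have ha1 : (1 : ℝ) ≤ a := by
    have : (1 : ℝ) ≤ 5 ^ 20 := by norm_num
    linarith
  obtain ⟨z, hz⟩ : ∃ z : ℝ, z = (a : ℝ) ^ ((1 : ℝ) / 20) := ⟨_, rfl⟩
  obtain ⟨u, hu'⟩ : ∃ u : ℝ, u = (a : ℝ) ^ κ := ⟨_, rfl⟩
  have hz20 : (a : ℝ) = z ^ 20 := by
    rw [hz, ← Real.rpow_natCast, ← Real.rpow_mul ha0.le]
    norm_num
  have hz0 : 0 ≤ z := by rw [hz]; positivity
  have hz5 : 5 ≤ z := by
    by_contra h
    rw [not_le] at h
    have : z ^ 20 < 5 ^ 20 := pow_lt_pow_left₀ h hz0 (by norm_num)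
    linarith
  have huz : u ≤ z := by
    rw [hu', hz]
    exact Real.rpow_le_rpow_of_exponent_le ha1 h1.le
  rw [← hu'] at hu hn
  have hu0 : 0 < u := by linarith
  have e1 : (a : ℝ) ^ (1 + 2 * κ) = a * u ^ 2 := by
    rw [Real.rpow_add ha0, Real.rpow_one, hu', ← Real.rpow_natCast ((a : ℝ) ^ κ) 2,
      ← Real.rpow_mul ha0.le]
    congr 2
    push_cast
    ring
  have e2 : (a : ℝ) ^ (1 - κ) = a / u := by
    rw [Real.rpow_sub ha0, Real.rpow_one, hu']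
  rw [e1] at hb
  have hy1 : 1 ≤ z ^ 4 := one_le_pow₀ (by linarith)
  obtain ⟨w, hw⟩ : ∃ w : ℕ, w = ⌈z ^ 4⌉₊ := ⟨_, rfl⟩
  have hw1 : z ^ 4 ≤ w := by rw [hw]; exact Nat.le_ceil _
  have hw2 : (w : ℝ) ≤ 2 * z ^ 4 := by
    have : (w : ℝ) < z ^ 4 + 1 := by rw [hw]; exact Nat.ceil_lt_add_one (by positivity)
    linarith
  have hn0 : (0 : ℝ) ≤ n := Nat.cast_nonneg n
  obtain ⟨r1, r2, r3⟩ := G2.core hz5 hu huz hz20 (by linarith : 3 ≤ (n : ℝ) + 3) hn hb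
    (Nat.cast_nonneg w) hw2
  refine ⟨w, by exact_mod_cast r1, ?_, by exact_mod_cast r2, ?_⟩
  · have : (a : ℝ) ≤ (w : ℝ) ^ 5 := by
      calc (a : ℝ) = (z ^ 4) ^ 5 := by rw [hz20]; ring
        _ ≤ (w : ℝ) ^ 5 := pow_le_pow_left₀ (by positivity) hw1 5
    exact_mod_cast this
  · rw [e2, div_mul_eq_mul_div, le_div_iff₀ hu0]
    push_cast
    have e5 : (n : ℝ) + 5 = (n : ℝ) + 3 + 2 := by ring
    rw [e5]
    exact r3

end Vale.Agent.P181.FR
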