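import Vale.Agent.P181.R2.H207.Delta2
import Vale.Agent.P181.R2.H539.Fac
import Vale.Agent.P181.R2.H130.Grow2

/-!
# P181, row G4: the number of rows may grow like a power of `a`
-/

set_option autoImplicit false

open scoped TensorProduct

namespace Vale.Agent.P181.FR

open Vale.Agent.P181 Vale.Agent.P181.H280

/-- Row G1: the numbers for `b ≤ a ^ (1 + 2 κ)`. -/
def GNum : Prop := ∀ {δ : ℝ}, 0 < δ → ∃ κ : ℝ, 0 < κ ∧ κ < 1 / 20 ∧ ∃ A : ℕ, ∀ n a b : ℕ,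
    A ≤ a → (n : ℝ) + 3 ≤ (a : ℝ) ^ κ → (1 + δ) * a ≤ b → (b : ℝ) ≤ (a : ℝ) ^ (1 + 2 * κ) →
    ∃ c h s : ℕ, c + (n + 3) ≤ a ∧ (n + 2) * h ≤ c ∧ s * b ≤ h ^ (n + 2) ∧
      (c : ℝ) + 1 + 4 * (n + 3) ^ 2 ≤ (a : ℝ) ^ (1 - κ) ∧
      ∀ L : ℕ, a.factorial * L ≤ ((b + 1) ^ (n + 2) + a) ^ a →
        L * (b * c + 1) ^ ((n + 3) * (n + 3) + (n + 3)) ≤ s ^ b

/-- Row G4 from row G1. -/
theorem final_grow_of (H1 : GNum) {δ : ℝ} (hδ : 0 < δ) :
    ∃ κ : ℝ, 0 < κ ∧ κ < 1 / 20 ∧ ∃ A : ℕ, ∀ (n a b : ℕ) (lam : Fin (n + 3) → ℕ), A ≤ a →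
      (n : ℝ) + 3 ≤ (a : ℝ) ^ κ → (1 + δ) * a ≤ b → ∑ i, lam i = a * b →
      (∀ i : Fin (n + 2), (lam i.succ : ℝ) + (a : ℝ) ^ (1 - κ) * b ≤ lam i.castSucc) →
      (a : ℝ) ^ (1 - κ) * b ≤ lam (Fin.last _) →
      plethMult a b (n + 3) lam ≤ plethMult b a (n + 3) lam := by
  obtain ⟨κ, h0, h1, A1, hA1⟩ := H1 hδ
  obtain ⟨A2, hA2⟩ := grow_num2 h0 h1
  refine ⟨κ, h0, h1, max A1 A2 + 1, ?_⟩
  intro n a b lam hA hn hab hsum hgap hlast
  have hAA1 : A1 ≤ a := by have := le_max_left A1 A2; omega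
  have hAA2 : A2 ≤ a := by have := le_max_right A1 A2; omega
  have ha1 : 1 ≤ a := by omega
  have ha1R : (1 : ℝ) ≤ a := by exact_mod_cast ha1
  have habR : (a : ℝ) ≤ b := by
    have : 0 ≤ δ * a := by positivity
    nlinarith
  have hb0 : (0 : ℝ) ≤ b := by linarith
  have hab' : a ≤ b := by exact_mod_cast habR
  have hna : (n : ℝ) + 3 ≤ a := by
    refine hn.trans ?_
    calc (a : ℝ) ^ κ ≤ (a : ℝ) ^ (1 : ℝ) := Real.rpow_le_rpow_of_exponent_le ha1R (by linarith)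
      _ = a := Real.rpow_one _
  have hnb' : n + 3 ≤ b := by
    have : n + 3 ≤ a := by exact_mod_cast hna
    omega
  by_cases hb : (b : ℝ) ≤ (a : ℝ) ^ (1 + 2 * κ)
  · obtain ⟨c, h, s, c1, c2, c3, c4, c5⟩ := hA1 n a b hAA1 hn hab hb
    have hfac : 0 < a.factorial := Nat.factorial_pos _
    have hXL : a.factorial ≤ ((b + 1) ^ (n + 2) + a) ^ a :=
      (Nat.factorial_le_pow a).trans (Nat.pow_le_pow_left (Nat.le_add_left _ _) _)
    have hkey : (c : ℝ) * b + b + 4 * (n + 3) ^ 2 * b ≤ (a : ℝ) ^ (1 - κ) * b := by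
      have := mul_le_mul_of_nonneg_right c4 hb0
      linarith
    have hcube : (n + 3) ^ 3 + 3 ≤ b + 4 * (n + 3) ^ 2 * b := by
      have e1 : (n + 3) ^ 3 ≤ (n + 3) ^ 2 * b := by
        calc (n + 3) ^ 3 = (n + 3) ^ 2 * (n + 3) := by ring
          _ ≤ (n + 3) ^ 2 * b := Nat.mul_le_mul_left _ hnb'
      have e2 : 0 ≤ (n + 3) ^ 2 * b := Nat.zero_le _
      have e3 : 3 ≤ b := by omega
      nlinarith
    have hcubeR : ((n : ℝ) + 3) ^ 3 + 3 ≤ b + 4 * ((n : ℝ) + 3) ^ 2 * b := by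
      exact_mod_cast hcube
    refine tcore (((b + 1) ^ (n + 2) + a) ^ a / a.factorial) ?_ (Nat.div_pos hXL hfac) ?_ c1 lam
      hsum ?_ ?_ ?_
    · intro mu
      rw [Nat.le_div_iff_mul_le hfac, mul_comm]
      exact plethMult_le_fac a b (n + 2) mu
    · exact (c5 _ (Nat.mul_div_le _ _)).trans (tdim c2 c3)
    · have h3 : (lam 1 : ℝ) + (a : ℝ) ^ (1 - κ) * b ≤ lam 0 := hgap 0
      have h4 : ((lam 1 + c * b + b + 4 * (n + 3) ^ 2 * a : ℕ) : ℝ) ≤ lam 0 := by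
        push_cast
        have h5 : 4 * ((n : ℝ) + 3) ^ 2 * a ≤ 4 * ((n : ℝ) + 3) ^ 2 * b :=
          mul_le_mul_of_nonneg_left habR (by positivity)
        linarith
      exact_mod_cast h4
    · intro i
      have h3 := hgap i.succ
      have h4 : ((lam i.succ.succ + c * b + (n + 3) ^ 3 + 3 : ℕ) : ℝ) ≤
          lam i.succ.castSucc := by
        push_cast
        linarith
      exact_mod_cast h4
    · have h4 : ((c * b : ℕ) : ℝ) ≤ lam (Fin.last _) := by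
        push_cast
        have h5 : (0 : ℝ) ≤ b + 4 * (n + 3) ^ 2 * b := by positivity
        linarith
      exact_mod_cast h4
  · rw [not_le] at hb
    obtain ⟨w, w1, w2, w3, w4⟩ := hA2 n a b hAA2 hn hb.le
    obtain ⟨N, hN⟩ : ∃ N : ℕ, N = (2 * (n + 3) + 1) * 5 := ⟨_, rfl⟩
    rw [← hN] at w1 w3 w4
    have hE : (((N + 1) ^ 2 * w ^ 8 : ℕ) : ℝ) ≤ (a : ℝ) ^ (1 - κ) * b := by
      have : (0 : ℝ) ≤ ((n : ℝ) + 5) * b := by positivity
      linarith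
    refine final2 (p := 3) (w := w) (N := N) (by norm_num) hN w1 w2 w3 lam hsum ?_ ?_ ?_
    · have h3 : (lam 1 : ℝ) + (a : ℝ) ^ (1 - κ) * b ≤ lam 0 := hgap 0
      have h4 : ((lam 1 + (n + 5) * b + (N + 1) ^ 2 * w ^ (3 * 3 - 1) : ℕ) : ℝ) ≤ lam 0 := by
        push_cast
        push_cast at w4
        linarith
      exact_mod_cast h4
    · intro i
      have h3 := hgap i.succ
      have h4 : ((lam i.succ.succ + (N + 1) ^ 2 * w ^ (3 * 3 - 1) : ℕ) : ℝ) ≤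
          lam i.succ.castSucc := by
        push_cast
        push_cast at hE
        linarith
      exact_mod_cast h4
    · have h4 : (((N + 1) ^ 2 * w ^ (3 * 3 - 1) : ℕ) : ℝ) ≤ lam (Fin.last _) := by
        push_cast
        push_cast at hE
        linarith
      exact_mod_cast h4

end Vale.Agent.P181.FR
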