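import Vale.Agent.P181.R2.H130.Grow4
import Vale.Agent.P181.R2.H415.GrowNum
import Vale.Agent.P181.R2.H182.CountPoly
import Vale.Agent.P181.R2.H853.FG5

/-!
# P181: Foulkes' inequality when the number of rows grows like a power of `a`
-/

set_option autoImplicit false

open scoped TensorProduct

namespace Vale.Agent.P181.FR

open Vale.Agent.P181 Vale.Agent.P181.H280

/-- Foulkes' inequality for `b ≥ (1 + δ) a`, at most `a ^ κ` rows and gaps at least
`a ^ (1 - κ) b`. -/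
theorem final_grow {δ : ℝ} (hδ : 0 < δ) :
    ∃ κ : ℝ, 0 < κ ∧ κ < 1 / 20 ∧ ∃ A : ℕ, ∀ (n a b : ℕ) (lam : Fin (n + 3) → ℕ), A ≤ a →
      (n : ℝ) + 3 ≤ (a : ℝ) ^ κ → (1 + δ) * a ≤ b → ∑ i, lam i = a * b →
      (∀ i : Fin (n + 2), (lam i.succ : ℝ) + (a : ℝ) ^ (1 - κ) * b ≤ lam i.castSucc) →
      (a : ℝ) ^ (1 - κ) * b ≤ lam (Fin.last _) →
      plethMult a b (n + 3) lam ≤ plethMult b a (n + 3) lam :=
  final_grow_of (fun h => grow_num h) hδ

/-- Foulkes' inequality for `b ≥ (1 + δ) a` and all but `C a ^ (-κ)` of the partitions with at most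
`m` rows, for all `m ≤ a ^ κ`. -/
theorem almost_all_grow {δ : ℝ} (hδ : 0 < δ) : ∃ κ C : ℝ, 0 < κ ∧ 0 < C ∧ ∀ n a b : ℕ,
    1 ≤ a → (n : ℝ) + 3 ≤ (a : ℝ) ^ κ → (1 + δ) * a ≤ b →
      (({lam ∈ (Parts (n + 3) (a * b) : Set (Fin (n + 3) → Fin (a * b + 1))) |
        ¬ plethMult a b (n + 3) (fun i => lam i) ≤
          plethMult b a (n + 3) (fun i => lam i)}.ncard : ℕ) : ℝ) ≤
        C * (a : ℝ) ^ (-κ) * (Parts (n + 3) (a * b)).card :=
  almost_all_grow_of (fun n s G h => count_gap_poly n s G h) (final_grow hδ)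

end Vale.Agent.P181.FR
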