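import Vale.Agent.P181.R2.H207.KDefs

set_option autoImplicit false

namespace Vale.Agent.P181.KT

open Finset

namespace R12

/-- Lowering one exponent. -/
def low {m : ℕ} (i : Fin m) (u : Fin m → ℕ) : Fin m → ℕ := fun k => u k - if k = i then 1 else 0

lemma low_id {m b : ℕ} (hb : 1 ≤ b) (τ : Fin m → ℝ) (u : Fin m → ℕ) (hu : ∑ i, u i = b + 1) :
    ∑ i, ((u i : ℝ) / (b + 1)) * (∑ k, τ k / b * (low i u k : ℝ)) =
      ∑ k, τ k / ((b : ℝ) + 1) * (u k : ℝ) := by
  have hb0 : (b : ℝ) ≠ 0 := by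
    have : (1 : ℝ) ≤ b := by exact_mod_cast hb
    linarith
  have hb1 : (b : ℝ) + 1 ≠ 0 := by positivity
  have h : ∀ i k, (u i : ℝ) * (low i u k : ℝ) = u i * ((u k : ℝ) - if k = i then 1 else 0) := by
    intro i k
    unfold low
    by_cases hki : k = i
    · subst hki
      rw [if_pos rfl, if_pos rfl]
      by_cases h0 : u k = 0
      · rw [h0]; simp
      · rw [Nat.cast_sub (by omega)]
        simp
    · rw [if_neg hki, if_neg hki]
      simp
  have hsum : (∑ i, (u i : ℝ)) = b + 1 := by exact_mod_cast hu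
  have h1 : ∀ i, ((u i : ℝ) / (b + 1)) * (∑ k, τ k / b * (low i u k : ℝ)) =
      ∑ k, (τ k / b / (b + 1)) * (u i * ((u k : ℝ) - if k = i then 1 else 0)) := by
    intro i
    rw [mul_sum]
    refine sum_congr rfl (fun k _ => ?_)
    rw [← h i k]
    ring
  rw [sum_congr rfl (fun i _ => h1 i), sum_comm]
  refine sum_congr rfl (fun k _ => ?_)
  rw [← mul_sum]
  have h2 : ∑ i, (u i : ℝ) * ((u k : ℝ) - if k = i then 1 else 0) = b * u k := by
    have h3 : ∀ i, (u i : ℝ) * ((u k : ℝ) - if k = i then 1 else 0) =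
        (u i : ℝ) * u k - if k = i then (u i : ℝ) else 0 := by
      intro i
      by_cases hki : k = i
      · rw [if_pos hki, if_pos hki]; ring
      · rw [if_neg hki, if_neg hki]; ring
    rw [sum_congr rfl (fun i _ => h3 i), sum_sub_distrib, ← sum_mul, hsum,
      Finset.sum_ite_eq univ k (fun i => (u i : ℝ)), if_pos (mem_univ k)]
    ring
  rw [h2]
  field_simp

lemma reindex {m b : ℕ} (i : Fin m) (f : (Fin m → ℕ) → ℝ) :
    ∑ u ∈ Mn m (b + 1), (u i : ℝ) * f (low i u) = ∑ v ∈ Mn m b, ((v i : ℝ) + 1) * f v := by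
  classical
  have h1 : ∑ u ∈ Mn m (b + 1), (u i : ℝ) * f (low i u) =
      ∑ u ∈ (Mn m (b + 1)).filter (fun u => u i ≠ 0), (u i : ℝ) * f (low i u) := by
    symm
    apply sum_subset (filter_subset _ _)
    intro u hu hn
    rw [mem_filter, not_and, not_not] at hn
    rw [hn hu]
    simp
  rw [h1]
  have hlow : ∀ v : Fin m → ℕ, low i (fun k => v k + if k = i then 1 else 0) = v := by
    intro v
    funext k
    show v k + (if k = i then 1 else 0) - (if k = i then 1 else 0) = v k
    omega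
  have hlow' : ∀ u : Fin m → ℕ, u i ≠ 0 → (fun k => low i u k + if k = i then 1 else 0) = u := by
    intro u hu
    funext k
    unfold low
    by_cases hki : k = i
    · subst hki
      rw [if_pos rfl]
      omega
    · rw [if_neg hki]
      omega
  have hs : ∀ v : Fin m → ℕ, ∑ k, (v k + if k = i then 1 else 0) = ∑ k, v k + 1 := by
    intro v
    rw [sum_add_distrib]
    simp
  refine sum_nbij' (fun u => low i u) (fun v => fun k => v k + if k = i then 1 else 0)
    ?_ ?_ ?_ ?_ ?_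
  · intro u hu
    rw [mem_filter, Mn, mem_piAntidiag] at hu
    rw [Mn, mem_piAntidiag]
    refine ⟨?_, fun _ _ => mem_univ _⟩
    have h2 := hs (low i u)
    rw [sum_congr rfl (fun k _ => congrFun (hlow' u hu.2) k)] at h2
    have h3 := hu.1.1
    change ∑ k, u k = b + 1 at h3
    show ∑ k, low i u k = b
    omega
  · intro v hv
    rw [Mn, mem_piAntidiag] at hv
    rw [mem_filter, Mn, mem_piAntidiag]
    refine ⟨⟨?_, fun _ _ => mem_univ _⟩, ?_⟩
    · show ∑ k, (v k + if k = i then 1 else 0) = b + 1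
      rw [hs v]
      have h3 := hv.1
      change ∑ k, v k = b at h3
      omega
    · show v i + (if i = i then 1 else 0) ≠ 0
      simp
  · intro u hu
    rw [mem_filter] at hu
    exact hlow' u hu.2
  · intro v _
    exact hlow v
  · intro u hu
    rw [mem_filter] at hu
    have h2 : ((low i u i : ℕ) : ℝ) + 1 = u i := by
      have := congrFun (hlow' u hu.2) i
      simp only [if_true] at this
      exact_mod_cast this
    rw [h2]

theorem step {m b : ℕ} (hb : 1 ≤ b) (τ : Fin m → ℝ) :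
    ZZ m (b + 1) (fun i => τ i / ((b : ℝ) + 1)) ≤
      (((b : ℝ) + m) / (b + 1)) * ZZ m b (fun i => τ i / b) := by
  obtain ⟨f, hf⟩ : ∃ f : (Fin m → ℕ) → ℝ, ∀ v, f v = Real.exp (∑ k, τ k / b * (v k : ℝ)) :=
    ⟨_, fun _ => rfl⟩
  have hb1 : (0 : ℝ) < (b : ℝ) + 1 := by positivity
  have h1 : ∀ u ∈ Mn m (b + 1), Real.exp (∑ k, τ k / ((b : ℝ) + 1) * (u k : ℝ)) ≤
      ∑ i, ((u i : ℝ) / (b + 1)) * f (low i u) := by
    intro u hu
    rw [Mn, mem_piAntidiag] at hu
    have hu1 : ∑ i, u i = b + 1 := hu.1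
    rw [← low_id hb τ u hu1]
    have hc := convexOn_exp.map_sum_le (t := univ) (w := fun i => (u i : ℝ) / ((b : ℝ) + 1))
      (p := fun i => ∑ k, τ k / b * (low i u k : ℝ)) (fun i _ => by positivity) (by
        rw [← sum_div, div_eq_one_iff_eq hb1.ne']
        exact_mod_cast hu1) (fun _ _ => Set.mem_univ _)
    simp only [smul_eq_mul] at hc
    refine hc.trans (le_of_eq (sum_congr rfl (fun i _ => ?_)))
    rw [hf]
  calc ZZ m (b + 1) (fun i => τ i / ((b : ℝ) + 1))
      ≤ ∑ u ∈ Mn m (b + 1), ∑ i, ((u i : ℝ) / (b + 1)) * f (low i u) := sum_le_sum h1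
    _ = ∑ i, ∑ u ∈ Mn m (b + 1), ((u i : ℝ) / (b + 1)) * f (low i u) := sum_comm
    _ = ∑ i, (∑ v ∈ Mn m b, ((v i : ℝ) + 1) * f v) / (b + 1) := by
        refine sum_congr rfl (fun i _ => ?_)
        rw [← reindex i f, sum_div]
        refine sum_congr rfl (fun u _ => ?_)
        ring
    _ = (∑ v ∈ Mn m b, (∑ i, ((v i : ℝ) + 1)) * f v) / (b + 1) := by
        rw [← sum_div, sum_comm]
        congr 1
        refine sum_congr rfl (fun v _ => ?_)
        rw [sum_mul]
    _ = (∑ v ∈ Mn m b, ((b : ℝ) + m) * f v) / (b + 1) := by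
        congr 1
        refine sum_congr rfl (fun v hv => ?_)
        rw [Mn, mem_piAntidiag] at hv
        have hv1 : ∑ i, v i = b := hv.1
        have hv2 : ∑ i, (v i : ℝ) = b := by exact_mod_cast hv1
        rw [sum_add_distrib, hv2]
        simp
    _ = (((b : ℝ) + m) / (b + 1)) * ZZ m b (fun i => τ i / b) := by
        rw [← mul_sum, ZZ, sum_congr rfl (fun v _ => hf v)]
        ring

end R12

/-- K12 (two degrees). -/
theorem k12 : ∀ {m c b : ℕ} (τ : Fin m → ℝ), 1 ≤ m → 1 ≤ c → c ≤ b →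
    ZZ m b (fun i => τ i / b) ≤ ((b : ℝ) / c) ^ (m - 1) * ZZ m c (fun i => τ i / c) := by
  intro m c b τ hm hc hcb
  have hc0 : (0 : ℝ) < c := by exact_mod_cast hc
  have hZ : ∀ (k : ℕ) (η : Fin m → ℝ), 0 ≤ ZZ m k η := fun k η =>
    sum_nonneg (fun _ _ => (Real.exp_pos _).le)
  induction b, hcb using Nat.le_induction with
  | base => rw [div_self hc0.ne', one_pow, one_mul]
  | succ b hcb ih =>
    have hb : 1 ≤ b := hc.trans hcb
    have hb0 : (0 : ℝ) < b := by exact_mod_cast hb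
    have hs := R12.step hb τ
    have hm1 : ((m - 1 : ℕ) : ℝ) = (m : ℝ) - 1 := by
      rw [Nat.cast_sub hm, Nat.cast_one]
    have hbern : ((b : ℝ) + m) / (b + 1) ≤ (((b : ℝ) + 1) / b) ^ (m - 1) := by
      have h1 := one_add_mul_le_pow (a := 1 / (b : ℝ))
        (by have : 0 < 1 / (b : ℝ) := by positivity
            linarith) (m - 1)
      have h2 : 1 + 1 / (b : ℝ) = ((b : ℝ) + 1) / b := by field_simp
      rw [h2, hm1] at h1
      refine le_trans ?_ h1
      have hm0 : (0 : ℝ) ≤ (m : ℝ) - 1 := by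
        have : (1 : ℝ) ≤ m := by exact_mod_cast hm
        linarith
      have h3 : ((b : ℝ) + m) / (b + 1) = 1 + ((m : ℝ) - 1) * (1 / (b + 1)) := by
        field_simp
        ring
      rw [h3]
      have h4 : 1 / ((b : ℝ) + 1) ≤ 1 / b :=
        one_div_le_one_div_of_le hb0 (by linarith)
      have := mul_le_mul_of_nonneg_left h4 hm0
      linarith
    push_cast
    calc ZZ m (b + 1) (fun i => τ i / ((b : ℝ) + 1))
        ≤ (((b : ℝ) + m) / (b + 1)) * ZZ m b (fun i => τ i / b) := hs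
      _ ≤ (((b : ℝ) + 1) / b) ^ (m - 1) *
          (((b : ℝ) / c) ^ (m - 1) * ZZ m c (fun i => τ i / c)) :=
        mul_le_mul hbern ih (hZ _ _) (by positivity)
      _ = (((b : ℝ) + 1) / c) ^ (m - 1) * ZZ m c (fun i => τ i / c) := by
        rw [← mul_assoc, ← mul_pow]
        congr 2
        field_simp

end Vale.Agent.P181.KT
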