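import Vale.Agent.P181.R2.H849.Gap

/-! P181, row Q2: the pure gap theorem with the parameters `(q, s)`, `b < s ^ q`. -/

set_option autoImplicit false

open scoped TensorProduct

namespace Vale.Agent.P181.FR

open Vale.Agent.P181 Vale.Agent.P181.H280

/-- **Row Q2** from W5 and W8. -/
theorem gap_qs_of {m i : ℕ} (hi : 3 ≤ i) (him : i ≤ m) (w5 : W5I m i) (w8 : W8I m i) :
    ∃ C : ℕ, ∀ (a b q s : ℕ) (g : ℕ → ℕ), 1 ≤ q → 2 ≤ s → b + 1 ≤ s ^ q → C * (q * s) ≤ a →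
    C * (a * q) ≤ b → ∑ j ∈ Finset.Icc 1 m, j * g j = a * b →
    C * ((a * q) ^ 3 * s) ≤ (g i) ^ 2 →
    plethMult a b m (gw m g) ≤ plethMult b a m (gw m g) := by
  obtain ⟨a0, hpos⟩ := w5
  obtain ⟨N, hrich⟩ := w8
  obtain ⟨K, hK⟩ : ∃ K, K = 8 * (N + 1) := ⟨_, rfl⟩
  obtain ⟨C, hC⟩ : ∃ C, C = 2 * m * K ^ 2 + 2 * (a0 + 4 * N + 1) + i * (2 * m + 3 * (m + 1) + m ^ 2)
    + (12 * N * m + 7 * (m + 1)) ^ 2 * (2 * m) + 4 := ⟨_, rfl⟩
  refine ⟨C, ?_⟩
  intro a b q s g hq1 hs2 hL hCa hCb hsum hCg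
  have hqs : 1 ≤ q * s := Nat.mul_pos hq1 (by omega)
  have hC1 : C ≤ a := (Nat.le_mul_of_pos_right C hqs).trans hCa
  have ha4 : 4 ≤ a := by omega
  obtain ⟨P, hP⟩ : ∃ P, P = a * q := ⟨_, rfl⟩
  rw [← hP] at hCb hCg
  have haP : a ≤ P := by rw [hP]; exact Nat.le_mul_of_pos_right a hq1
  obtain ⟨r, hr⟩ : ∃ r, r = Nat.sqrt (m * P * s) := ⟨_, rfl⟩
  have hr1 : r * r ≤ m * P * s := by rw [hr]; exact Nat.sqrt_le _
  have hr2 : m * P * s < (r + 1) * (r + 1) := by rw [hr]; exact Nat.lt_succ_sqrt _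
  have hmP : 3 * 4 ≤ m * P := Nat.mul_le_mul (by omega) (by omega)
  have hr0 : 1 ≤ r := by
    rcases Nat.eq_zero_or_pos r with h | h
    · rw [h] at hr2
      have h2 : 12 * 2 ≤ m * P * s := Nat.mul_le_mul (by omega) hs2
      omega
    · exact h
  have hKr : K * r ≤ a := by
    have h1 : (K * r) ^ 2 ≤ a ^ 2 := by
      calc (K * r) ^ 2 = K ^ 2 * (r * r) := by ring
        _ ≤ K ^ 2 * (m * P * s) := Nat.mul_le_mul_left _ hr1
        _ = (m * K ^ 2 * (q * s)) * a := by rw [hP]; ring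
        _ ≤ (C * (q * s)) * a := by
            apply Nat.mul_le_mul_right
            apply Nat.mul_le_mul_right
            have e : 2 * m * K ^ 2 = m * K ^ 2 + m * K ^ 2 := by ring
            rw [hC]; omega
        _ ≤ a * a := Nat.mul_le_mul_right _ hCa
        _ = a ^ 2 := by ring
    exact (Nat.pow_le_pow_iff_left (by norm_num)).1 h1
  have hc : a0 + 2 * (N * (r + 1 + 1)) + 1 ≤ a := by
    have h1 : 2 * (N * (r + 1 + 1)) = 2 * (N * r) + 4 * N := by ring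
    have h2 : K * r = 8 * (N * r) + 8 * r := by rw [hK]; ring
    have h3 : 2 * (a0 + 4 * N + 1) ≤ a := by
      refine le_trans ?_ hC1
      rw [hC]; omega
    omega
  refine gap_core (N := N) (a0 := a0) (c := N * (r + 1 + 1)) (h := r + 1) (R := m * P)
    (s := s) (by omega) him hpos hrich hsum le_rfl ?_ ?_ hc ?_ ?_ ?_
  · omega
  · calc (b + 1) ^ (m * a) ≤ (s ^ q) ^ (m * a) := Nat.pow_le_pow_left hL _
      _ = s ^ (m * P) := by rw [← pow_mul, hP]; congr 1; ring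
  · have : m * 4 ≤ m * P := Nat.mul_le_mul_left _ (by omega)
    omega
  · have hP1 : 1 ≤ P := by omega
    calc 2 * i * (m * P) + 3 * i * (m + 1) + i * m ^ 2
        = i * (2 * m * P + (3 * (m + 1) + m ^ 2) * 1) := by ring
      _ ≤ i * (2 * m * P + (3 * (m + 1) + m ^ 2) * P) :=
          Nat.mul_le_mul_left _ (Nat.add_le_add_left (Nat.mul_le_mul_left _ hP1) _)
      _ = i * (2 * m + 3 * (m + 1) + m ^ 2) * P := by ring
      _ ≤ C * P := by
          apply Nat.mul_le_mul_right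
          rw [hC]; omega
      _ ≤ b := hCb
  · have h1 : (4 * (N * (r + 1 + 1)) * (m * P) + 6 * (m + 1) * a + m) ≤
        (12 * N * m + 7 * (m + 1)) * (r * P) := by
      have h2 : N * (r + 1 + 1) ≤ N * (3 * r) := Nat.mul_le_mul_left _ (by omega)
      have h3 : 4 * (N * (r + 1 + 1)) * (m * P) ≤ 4 * (N * (3 * r)) * (m * P) :=
        Nat.mul_le_mul_right _ (Nat.mul_le_mul_left _ h2)
      have h4 : a * 1 ≤ P * r := Nat.mul_le_mul haP hr0
      have h5 : 6 * (m + 1) * a ≤ 6 * (m + 1) * (r * P) :=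
        Nat.mul_le_mul_left _ (by rw [Nat.mul_comm r P]; omega)
      have h6 : (m + 1) * 1 ≤ (m + 1) * (r * P) :=
        Nat.mul_le_mul_left _ (by rw [Nat.mul_comm r P]; omega)
      calc 4 * (N * (r + 1 + 1)) * (m * P) + 6 * (m + 1) * a + m
          ≤ 4 * (N * (3 * r)) * (m * P) + 6 * (m + 1) * (r * P) + (m + 1) * (r * P) := by omega
        _ = _ := by ring
    refine h1.trans ?_
    have h2 : ((12 * N * m + 7 * (m + 1)) * (r * P)) ^ 2 ≤ (g i) ^ 2 := by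
      calc ((12 * N * m + 7 * (m + 1)) * (r * P)) ^ 2
          = (12 * N * m + 7 * (m + 1)) ^ 2 * (r * r) * P ^ 2 := by ring
        _ ≤ (12 * N * m + 7 * (m + 1)) ^ 2 * (m * P * s) * P ^ 2 :=
            Nat.mul_le_mul_right _ (Nat.mul_le_mul_left _ hr1)
        _ = (12 * N * m + 7 * (m + 1)) ^ 2 * m * (P ^ 3 * s) := by ring
        _ ≤ C * (P ^ 3 * s) := by
            apply Nat.mul_le_mul_right
            have e : (12 * N * m + 7 * (m + 1)) ^ 2 * (2 * m) =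
              (12 * N * m + 7 * (m + 1)) ^ 2 * m + (12 * N * m + 7 * (m + 1)) ^ 2 * m := by ring
            rw [hC]; omega
        _ ≤ (g i) ^ 2 := hCg
    exact (Nat.pow_le_pow_iff_left (by norm_num)).1 h2

end Vale.Agent.P181.FR
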