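import Vale.Agent.P181.R2.H959.FDefs
import Mathlib.LinearAlgebra.Lagrange

/-! R10 of P181.FewRowsInterior (helper130): `Eb_stable`, `Eb_weight`, `hw_sum`. -/

set_option autoImplicit false

open scoped TensorProduct

namespace Vale.Agent.P181.FR.H130

open Vale.Agent.P181 Vale.Agent.P181.H280 Vale.Agent.P181.H54

section Poly

variable {M : Type*} [AddCommMonoid M] [Module ℂ M]

/-- polynomial functions of one variable with values in `M` -/
def PF (M : Type*) [AddCommMonoid M] [Module ℂ M] : Submodule ℂ (ℂ → M) :=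
  Submodule.span ℂ {F | ∃ (n : ℕ) (z : M), F = fun t => t ^ n • z}

lemma mono_mem (n : ℕ) (z : M) : (fun t : ℂ => t ^ n • z) ∈ PF M :=
  Submodule.subset_span ⟨n, z, rfl⟩

lemma const_mem (z : M) : (fun _ : ℂ => z) ∈ PF M := by
  have h := mono_mem 0 z
  simpa using h

lemma mul_pow_mem {F : ℂ → M} (hF : F ∈ PF M) (k : ℕ) : (fun t : ℂ => t ^ k • F t) ∈ PF M := by
  induction hF using Submodule.span_induction with
  | mem F h =>
    obtain ⟨n, z, rfl⟩ := h
    have h1 : (fun t : ℂ => t ^ k • (fun t : ℂ => t ^ n • z) t) = fun t : ℂ => t ^ (k + n) • z := by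
      funext t
      rw [pow_add, mul_smul]
    rw [h1]
    exact mono_mem _ _
  | zero =>
    have h1 : (fun t : ℂ => t ^ k • (0 : ℂ → M) t) = 0 := by
      funext t
      simp
    rw [h1]
    exact Submodule.zero_mem _
  | add F G _ _ hF hG =>
    have h1 : (fun t : ℂ => t ^ k • (F + G) t) =
        (fun t : ℂ => t ^ k • F t) + fun t : ℂ => t ^ k • G t := by
      funext t
      simp [smul_add]
    rw [h1]
    exact Submodule.add_mem _ hF hG
  | smul c F _ hF =>
    have h1 : (fun t : ℂ => t ^ k • (c • F) t) = c • fun t : ℂ => t ^ k • F t := by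
      funext t
      simp only [Pi.smul_apply]
      rw [smul_comm]
    rw [h1]
    exact Submodule.smul_mem _ _ hF

/-- Lagrange interpolation at `0` with enough nodes is exact. -/
lemma eval_zero {F : ℂ → M} (hF : F ∈ PF M) :
    ∃ N : ℕ, ∀ s : Finset ℂ, N < s.card →
      F 0 = ∑ j ∈ s, ((Lagrange.basis s id j).eval 0) • F j := by
  induction hF using Submodule.span_induction with
  | mem F h =>
    obtain ⟨n, z, rfl⟩ := h
    refine ⟨n, fun s hs => ?_⟩
    have h1 : (Polynomial.X ^ n : Polynomial ℂ).degree < s.card := by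
      rw [Polynomial.degree_X_pow]
      exact_mod_cast hs
    have h2 := Lagrange.eq_interpolate (v := (id : ℂ → ℂ)) (s := s)
      (f := (Polynomial.X ^ n : Polynomial ℂ)) (fun _ _ _ _ h => h) h1
    have h3 := congrArg (Polynomial.eval 0) h2
    rw [Lagrange.interpolate_apply, Polynomial.eval_finsetSum] at h3
    simp only [Polynomial.eval_mul, Polynomial.eval_C, Polynomial.eval_pow, Polynomial.eval_X,
      id] at h3
    change (0 : ℂ) ^ n • z = ∑ j ∈ s, ((Lagrange.basis s id j).eval 0) • (j ^ n • z)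
    rw [h3, Finset.sum_smul]
    refine Finset.sum_congr rfl (fun j _ => ?_)
    rw [smul_smul, mul_comm]
  | zero =>
    refine ⟨0, fun s _ => ?_⟩
    simp
  | add F G _ _ hF hG =>
    obtain ⟨N, hN⟩ := hF
    obtain ⟨N', hN'⟩ := hG
    refine ⟨max N N', fun s hs => ?_⟩
    rw [Pi.add_apply, hN s (lt_of_le_of_lt (le_max_left _ _) hs),
      hN' s (lt_of_le_of_lt (le_max_right _ _) hs), ← Finset.sum_add_distrib]
    refine Finset.sum_congr rfl (fun j _ => ?_)
    rw [Pi.add_apply, smul_add]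
  | smul c F _ hF =>
    obtain ⟨N, hN⟩ := hF
    refine ⟨N, fun s hs => ?_⟩
    rw [Pi.smul_apply, hN s hs, Finset.smul_sum]
    refine Finset.sum_congr rfl (fun j _ => ?_)
    rw [Pi.smul_apply, smul_comm]

/-- A polynomial function which vanishes at `0` and is constant outside `0` vanishes. -/
lemma eq_zero_of_const {F : ℂ → M} (hF : F ∈ PF M) (x : M) (h : ∀ t : ℂ, t ≠ 0 → F t = x)
    (h0 : F 0 = 0) : x = 0 := by
  obtain ⟨N, hN⟩ := eval_zero hF
  let s : Finset ℂ := (Finset.range (N + 1)).map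
    ⟨fun n : ℕ => ((n : ℂ) + 1), fun a b hab => by
      have h1 : (a : ℂ) = b := by simpa using hab
      exact_mod_cast h1⟩
  have hs : N < s.card := by
    simp only [s, Finset.card_map, Finset.card_range]
    omega
  have h1 := hN s hs
  rw [h0] at h1
  have h2 : ∀ j ∈ s, ((Lagrange.basis s id j).eval 0) • F j =
      ((Lagrange.basis s id j).eval 0) • x := by
    intro j hj
    rw [h j]
    simp only [s, Finset.mem_map, Finset.mem_range] at hj
    obtain ⟨n, _, rfl⟩ := hj
    change (n : ℂ) + 1 ≠ 0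
    exact_mod_cast Nat.succ_ne_zero n
  rw [Finset.sum_congr rfl h2, ← Finset.sum_smul, ← Polynomial.eval_finsetSum,
    Lagrange.sum_basis (v := (id : ℂ → ℂ)) (fun _ _ _ _ h => h) (Finset.card_pos.1 (by omega)),
    Polynomial.eval_one, one_smul] at h1
  exact h1.symm

lemma exists_rep {F : ℂ → M} (hF : F ∈ PF M) :
    ∃ l : ℕ →₀ M, ∀ t, F t = ∑ n ∈ l.support, t ^ n • l n := by
  classical
  induction hF using Submodule.span_induction with
  | mem F h =>
    obtain ⟨n, z, rfl⟩ := h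
    refine ⟨Finsupp.single n z, fun t => ?_⟩
    exact (Finsupp.sum_single_index (h := fun (n : ℕ) (z : M) => t ^ n • z) (smul_zero _)).symm
  | zero => exact ⟨0, fun t => by simp⟩
  | add F G _ _ hF hG =>
    obtain ⟨l, hl⟩ := hF
    obtain ⟨l', hl'⟩ := hG
    refine ⟨l + l', fun t => ?_⟩
    change _ = (l + l').sum (fun n z => t ^ n • z)
    rw [Finsupp.sum_add_index' (fun _ => smul_zero _) (fun _ _ _ => smul_add _ _ _), Pi.add_apply,
      hl t, hl' t]
    rfl
  | smul c F _ hF =>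
    obtain ⟨l, hl⟩ := hF
    refine ⟨c • l, fun t => ?_⟩
    change _ = (c • l).sum (fun n z => t ^ n • z)
    rw [Finsupp.sum_smul_index' (fun _ => smul_zero _), Pi.smul_apply, hl t, Finset.smul_sum]
    refine Finset.sum_congr rfl (fun n _ => ?_)
    rw [smul_comm]

lemma multi_mem {ι : Type*} [Fintype ι] [DecidableEq ι] {N : Type*} [AddCommMonoid N] [Module ℂ N]
    (φ : MultilinearMap ℂ (fun _ : ι => M) N) (f : ι → ℂ → M) (hf : ∀ i, f i ∈ PF M) :
    (fun t => φ (fun i => f i t)) ∈ PF N := by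
  choose l hl using fun i => exists_rep (hf i)
  have h1 : (fun t => φ (fun i => f i t)) = ∑ r ∈ Fintype.piFinset (fun i => (l i).support),
      fun t : ℂ => t ^ (∑ i, r i) • φ (fun i => l i (r i)) := by
    funext t
    rw [Finset.sum_apply]
    have h2 : (fun i => f i t) = fun i => ∑ n ∈ (l i).support, t ^ n • l i n :=
      funext fun i => hl i t
    rw [h2, MultilinearMap.map_sum_finset]
    refine Finset.sum_congr rfl (fun r _ => ?_)
    rw [MultilinearMap.map_smul_univ, Finset.prod_pow_eq_pow_sum]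
  rw [h1]
  exact Submodule.sum_mem _ (fun r _ => mono_mem _ _)

lemma eq_zero_of_smul {c c' : ℂ} {x : M} (h : c • x = c' • x) (hne : c ≠ c') : x = 0 := by
  have h1 : (c - c') • x = 0 := by
    rw [sub_eq_add_neg, add_smul, h, ← add_smul, add_neg_cancel, zero_smul]
  have h2 : (c - c')⁻¹ • (c - c') • x = 0 := by rw [h1, smul_zero]
  rwa [smul_smul, inv_mul_cancel₀ (sub_ne_zero.2 hne), one_smul] at h2

end Poly

end Vale.Agent.P181.FR.H130

namespace Vale.Agent.P181.FR

open Vale.Agent.P181 Vale.Agent.P181.H280 Vale.Agent.P181.H54 Vale.Agent.P181.FR.H130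

/-- action on a product of products -/
lemma H130.plethAct_tprod' {b a m : ℕ} (g : Matrix (Fin m) (Fin m) ℂ)
    (v : Fin b → Fin a → (Fin m → ℂ)) :
    plethAct b a m g (SymmetricPower.tprod ℂ (fun j => SymmetricPower.tprod ℂ (v j))) =
      (SymmetricPower.tprod ℂ (fun j => SymmetricPower.tprod ℂ
        (fun i => Matrix.toLin' g (v j i))) : Sym[ℂ]^b (Sym[ℂ]^a (Fin m → ℂ))) := by
  change symMap b (symMap a (Matrix.toLin' g)) _ = _
  rw [symMap_tprod]
  congr 1
  funext j
  rw [symMap_tprod]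

-- R10
theorem Eb_stable {b a n k0 : ℕ} : ∀ g, IsBorel g → ∀ x ∈ Eb b a n k0,
    plethAct b a (n + 1) g x ∈ Eb b a n k0 := by
  intro g hg x hx
  induction hx using Submodule.span_induction with
  | mem x h =>
    obtain ⟨v, S, hS, hv, rfl⟩ := h
    refine Submodule.subset_span ⟨fun j i => Matrix.toLin' g (v j i), S, hS, fun p hp => ?_, ?_⟩
    · obtain ⟨c, hc⟩ := hv p hp
      refine ⟨c * g 0 0, ?_⟩
      change Matrix.toLin' g (v p.1 p.2) = _
      rw [hc, map_smul]
      have h1 := borel_e0 hg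
      rw [e0] at h1
      rw [h1, smul_smul]
    · exact plethAct_tprod' g v
  | zero =>
    rw [map_zero]
    exact Submodule.zero_mem _
  | add x y _ _ hx hy =>
    rw [map_add]
    exact Submodule.add_mem _ hx hy
  | smul c x _ hx =>
    rw [map_smul]
    exact Submodule.smul_mem _ _ hx

theorem hw_sum {b a m : ℕ} {lam : Fin m → ℕ} {x : Pleth b a m}
    (hw : x ∈ hwSpace lam (plethAct b a m)) (h0 : x ≠ 0) : ∑ i, lam i = b * a := by
  have h1 := hw ((2 : ℂ) • (1 : Matrix (Fin m) (Fin m) ℂ)) ⟨fun i j hij => by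
    rw [Matrix.smul_apply, Matrix.one_apply_ne (ne_of_gt hij), smul_zero], fun i => by
    rw [Matrix.smul_apply, Matrix.one_apply_eq, smul_eq_mul, mul_one]
    norm_num⟩
  have h2 : plethAct b a m ((2 : ℂ) • (1 : Matrix (Fin m) (Fin m) ℂ)) x = (2 : ℂ) ^ (b * a) • x := by
    change symMap b (symMap a (Matrix.toLin' ((2 : ℂ) • (1 : Matrix (Fin m) (Fin m) ℂ)))) x = _
    have h3 : symMap a (Matrix.toLin' ((2 : ℂ) • (1 : Matrix (Fin m) (Fin m) ℂ))) =
        (2 : ℂ) ^ a • LinearMap.id := by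
      refine LinearMap.ext (fun y => ?_)
      rw [map_smul, Matrix.toLin'_one, symMap_smul_apply, symMap_id_apply]
      rfl
    rw [h3]
    have h4 : ∀ y : Sym[ℂ]^b (Sym[ℂ]^a (Fin m → ℂ)),
        symMap b ((2 : ℂ) ^ a • (LinearMap.id : (Sym[ℂ]^a (Fin m → ℂ)) →ₗ[ℂ] _)) y =
          (2 : ℂ) ^ (b * a) • y := by
      intro y
      rw [symMap_smul_apply, symMap_id_apply, ← pow_mul, mul_comm a b]
    exact h4 x
  rw [h2] at h1
  have h3 : (∏ i : Fin m, ((2 : ℂ) • (1 : Matrix (Fin m) (Fin m) ℂ)) i i ^ lam i) =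
      (2 : ℂ) ^ (∑ i, lam i) := by
    rw [← Finset.prod_pow_eq_pow_sum]
    refine Finset.prod_congr rfl (fun i _ => ?_)
    rw [Matrix.smul_apply, Matrix.one_apply_eq, smul_eq_mul, mul_one]
  rw [h3] at h1
  by_contra hne
  apply h0
  refine eq_zero_of_smul h1 (fun h => hne ?_)
  have h4 : (2 : ℕ) ^ (b * a) = 2 ^ (∑ i, lam i) := by exact_mod_cast h
  exact (Nat.pow_right_injective (le_refl 2) h4).symm

lemma H130.dg_vec {n : ℕ} (u : Fin (n + 1) → ℂ) (t : ℂ) :
    Matrix.toLin' (dg 0 t) u = (u - u 0 • Pi.single 0 1) + t • (u 0 • Pi.single 0 1) := by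
  funext i
  rw [Matrix.toLin'_apply, dg, Matrix.mulVec_diagonal]
  by_cases hi : i = 0
  · subst hi
    simp
  · simp [Function.update_of_ne hi, Pi.single_eq_of_ne hi]

lemma H130.dg_mem {n : ℕ} (u : Fin (n + 1) → ℂ) :
    (fun t : ℂ => Matrix.toLin' (dg 0 t) u) ∈ PF (Fin (n + 1) → ℂ) := by
  have h1 : (fun t : ℂ => Matrix.toLin' (dg 0 t) u) =
      (fun t : ℂ => t ^ 0 • (u - u 0 • Pi.single (M := fun _ : Fin (n + 1) => ℂ) 0 1)) +
        fun t : ℂ => t ^ 1 • (u 0 • Pi.single (M := fun _ : Fin (n + 1) => ℂ) 0 1) := by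
    funext t
    rw [dg_vec, Pi.add_apply, pow_zero, one_smul, pow_one]
  rw [h1]
  exact Submodule.add_mem _ (mono_mem _ _) (mono_mem _ _)

lemma H130.dg_borel {n : ℕ} {t : ℂ} (ht : t ≠ 0) : IsBorel (dg (0 : Fin (n + 1)) t) := by
  refine ⟨fun i j hij => Matrix.diagonal_apply_ne _ (ne_of_gt hij), fun i => ?_⟩
  rw [dg, Matrix.diagonal_apply_eq]
  by_cases hi : i = 0
  · subst hi
    simpa using ht
  · rw [Function.update_of_ne hi]
    simp

lemma H130.dg_prod {n : ℕ} (t : ℂ) (lam : Fin (n + 1) → ℕ) :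
    ∏ i, (dg (0 : Fin (n + 1)) t) i i ^ lam i = t ^ lam 0 := by
  rw [Finset.prod_eq_single 0]
  · rw [dg, Matrix.diagonal_apply_eq, Function.update_self]
  · intro i _ hi
    rw [dg, Matrix.diagonal_apply_eq, Function.update_of_ne hi, Pi.one_apply, one_pow]
  · intro h
    exact absurd (Finset.mem_univ _) h

lemma H130.gen_div {b a n k0 : ℕ} (v : Fin b → Fin a → (Fin (n + 1) → ℂ)) (S : Finset (Fin b × Fin a))
    (hS : k0 ≤ S.card) (hv : ∀ p ∈ S, ∃ c : ℂ, v p.1 p.2 = c • Pi.single 0 1) :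
    ∃ F ∈ PF (Sym[ℂ]^b (Sym[ℂ]^a (Fin (n + 1) → ℂ))), ∀ t : ℂ,
      (SymmetricPower.tprod ℂ (fun j => SymmetricPower.tprod ℂ
        (fun i => Matrix.toLin' (dg 0 t) (v j i))) : Sym[ℂ]^b (Sym[ℂ]^a (Fin (n + 1) → ℂ))) =
        t ^ k0 • F t := by
  classical
  let f' : Fin b → Fin a → ℂ → (Fin (n + 1) → ℂ) := fun j i t =>
    if (j, i) ∈ S then v j i else Matrix.toLin' (dg 0 t) (v j i)
  have hf' : ∀ j i, f' j i ∈ PF (Fin (n + 1) → ℂ) := by
    intro j i
    by_cases h : (j, i) ∈ S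
    · have h1 : f' j i = fun _ => v j i := by
        funext t
        simp only [f', h, if_true]
      rw [h1]
      exact const_mem _
    · have h1 : f' j i = fun t : ℂ => Matrix.toLin' (dg 0 t) (v j i) := by
        funext t
        simp only [f', h, if_false]
      rw [h1]
      exact dg_mem _
  have hff : ∀ j i (t : ℂ), Matrix.toLin' (dg 0 t) (v j i) =
      (if (j, i) ∈ S then t else 1) • f' j i t := by
    intro j i t
    by_cases h : (j, i) ∈ S
    · simp only [f', h, if_true]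
      obtain ⟨c, hc⟩ := hv _ h
      simp only at hc
      rw [dg_vec, hc]
      simp
    · simp only [f', h, if_false, one_smul]
  refine ⟨fun t => t ^ (S.card - k0) • (SymmetricPower.tprod ℂ (fun j => SymmetricPower.tprod ℂ
      (fun i => f' j i t)) : Sym[ℂ]^b (Sym[ℂ]^a (Fin (n + 1) → ℂ))), ?_, ?_⟩
  · apply mul_pow_mem
    exact multi_mem (SymmetricPower.tprod ℂ (ι := Fin b) (M := Sym[ℂ]^a (Fin (n + 1) → ℂ)))
      (fun j t => SymmetricPower.tprod ℂ (fun i => f' j i t))
      (fun j => multi_mem (SymmetricPower.tprod ℂ (ι := Fin a) (M := Fin (n + 1) → ℂ))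
        (fun i t => f' j i t) (fun i => hf' j i))
  · intro t
    have h1 : ∀ j, (SymmetricPower.tprod ℂ (fun i => Matrix.toLin' (dg 0 t) (v j i)) :
        Sym[ℂ]^a (Fin (n + 1) → ℂ)) =
          (∏ i : Fin a, if (j, i) ∈ S then t else 1) • SymmetricPower.tprod ℂ
            (fun i => f' j i t) := by
      intro j
      have h2 := MultilinearMap.map_smul_univ (SymmetricPower.tprod ℂ (ι := Fin a)
        (M := Fin (n + 1) → ℂ)) (fun i => if (j, i) ∈ S then t else 1) (fun i => f' j i t)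
      rw [← h2]
      congr 1
      funext i
      exact hff j i t
    have h3 : (fun j => (SymmetricPower.tprod ℂ (fun i => Matrix.toLin' (dg 0 t) (v j i)) :
        Sym[ℂ]^a (Fin (n + 1) → ℂ))) = fun j =>
          (∏ i : Fin a, if (j, i) ∈ S then t else 1) • SymmetricPower.tprod ℂ
            (fun i => f' j i t) := funext h1
    rw [h3]
    have h4 := MultilinearMap.map_smul_univ (SymmetricPower.tprod ℂ (ι := Fin b)
        (M := Sym[ℂ]^a (Fin (n + 1) → ℂ))) (fun j => ∏ i : Fin a, if (j, i) ∈ S then t else 1)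
        (fun j => SymmetricPower.tprod ℂ (fun i => f' j i t))
    rw [h4, smul_smul, ← pow_add, Nat.add_sub_cancel' hS]
    congr 1
    rw [← Finset.prod_product', Finset.univ_product_univ, Finset.prod_ite_mem,
      Finset.univ_inter, Finset.prod_const]

lemma H130.Eb_div {b a n k0 : ℕ} {x : Pleth b a (n + 1)} (hx : x ∈ Eb b a n k0) :
    ∃ F ∈ PF (Pleth b a (n + 1)), ∀ t : ℂ, plethAct b a (n + 1) (dg 0 t) x = t ^ k0 • F t := by
  induction hx using Submodule.span_induction with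
  | mem x h =>
    obtain ⟨v, S, hS, hv, rfl⟩ := h
    obtain ⟨F, hF, h1⟩ := gen_div v S hS hv
    exact ⟨F, hF, fun t => (plethAct_tprod' (dg 0 t) v).trans (h1 t)⟩
  | zero => exact ⟨0, Submodule.zero_mem _, fun t => by rw [map_zero, Pi.zero_apply, smul_zero]⟩
  | add x y _ _ hx hy =>
    obtain ⟨F, hF, h1⟩ := hx
    obtain ⟨G, hG, h2⟩ := hy
    exact ⟨F + G, Submodule.add_mem _ hF hG, fun t => by
      rw [map_add, h1, h2, Pi.add_apply, smul_add]⟩
  | smul c x _ hx =>
    obtain ⟨F, hF, h1⟩ := hx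
    exact ⟨c • F, Submodule.smul_mem _ _ hF, fun t => by
      rw [map_smul, h1, Pi.smul_apply, smul_comm]⟩

theorem Eb_weight {b a n k0 : ℕ} {lam : Fin (n + 1) → ℕ} {x : Pleth b a (n + 1)}
    (hx : x ∈ Eb b a n k0) (hw : x ∈ hwSpace lam (plethAct b a (n + 1))) (h0 : x ≠ 0) :
    k0 ≤ lam 0 := by
  by_contra hlt
  rw [not_le] at hlt
  apply h0
  obtain ⟨F, hF, h1⟩ := Eb_div hx
  refine eq_zero_of_const (mul_pow_mem hF (k0 - lam 0)) x (fun t ht => ?_) ?_
  · have h2 := hw (dg 0 t) (dg_borel ht)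
    rw [h1 t, dg_prod] at h2
    have h3 : t ^ lam 0 • (t ^ (k0 - lam 0) • F t) = t ^ lam 0 • x := by
      rw [smul_smul, ← pow_add, Nat.add_sub_cancel' hlt.le]
      exact h2
    have h4 := congrArg (fun y => (t ^ lam 0)⁻¹ • y) h3
    simpa only [smul_smul, ← mul_assoc, inv_mul_cancel₀ (pow_ne_zero _ ht), one_smul, one_mul]
      using h4
  · rw [zero_pow (Nat.sub_ne_zero_of_lt hlt), zero_smul]

end Vale.Agent.P181.FR
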