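import Vale.Agent.P181.R2.H959.WDefs
import Vale.Agent.P181.R2.H923.FR2
import Vale.Agent.P181.R2.H9.FR3

/-!
# P181, row W3: separation, from row W2
-/

set_option autoImplicit false

open scoped TensorProduct

namespace Vale.Agent.P181.FR

open Vale.Agent.P181 Vale.Agent.P181.H280 MvPolynomial

/-- Row W2. -/
def WHyper : Prop := ∀ {B m i : ℕ} (_ : 2 ≤ i) (_ : i ≤ m) (_ : 2 * i + 1 ≤ B)
    (σ : Equiv.Perm (Fin B)) (_ : σ ≠ 1),
    ∃ A A' : (Fin B → Fin m → ℂ) → ℂ, A ∈ MP B m ((B - 1).choose (i - 1)) ∧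
      A' ∈ MP B m ((B - 1).choose (i - 1)) ∧ HWF B m (B.choose i • om m i) A ∧
      HWF B m (B.choose i • om m i) A' ∧
      ∃ P, A P * A' (fun j => P (σ j)) ≠ A (fun j => P (σ j)) * A' P

namespace Sp

lemma line {B a m : ℕ} {G : (Fin B → Fin m → ℂ) → ℂ} (hG : G ∈ MP B m a)
    (p q : Fin B → Fin m → ℂ) :
    ∃ r : Polynomial ℂ, ∀ t : ℂ, r.eval t = G (fun j => p j + t • q j) := by
  induction hG using Submodule.span_induction with
  | mem G hG =>
    obtain ⟨s, _, rfl⟩ := hG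
    refine ⟨∏ j, (MvPolynomial.aeval
      (fun i => Polynomial.C (p j i) + Polynomial.X * Polynomial.C (q j i)) (s j)), ?_⟩
    intro t
    rw [Polynomial.eval_prod]
    apply Finset.prod_congr rfl
    intro j _
    have h1 : (Polynomial.evalRingHom t) (MvPolynomial.aeval
        (fun i => Polynomial.C (p j i) + Polynomial.X * Polynomial.C (q j i)) (s j)) =
        eval (p j + t • q j) (s j) := by
      rw [MvPolynomial.aeval_def, MvPolynomial.hom_eval₂]
      have h2 : (Polynomial.evalRingHom t).comp (algebraMap ℂ (Polynomial ℂ)) =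
          RingHom.id ℂ := by
        ext z
        simp
      rw [h2]
      change eval₂ (RingHom.id ℂ) _ _ = eval₂ (RingHom.id ℂ) _ _
      congr 1
      funext i
      simp
      exact mul_comm _ _
    exact h1
  | zero => exact ⟨0, fun t => by simp⟩
  | add G H _ _ h h' =>
    obtain ⟨r, hr⟩ := h
    obtain ⟨s, hs⟩ := h'
    exact ⟨r + s, fun t => by rw [Polynomial.eval_add, hr, hs]; rfl⟩
  | smul c G _ h =>
    obtain ⟨r, hr⟩ := h
    exact ⟨Polynomial.C c * r, fun t => by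
      rw [Polynomial.eval_mul, Polynomial.eval_C, hr]; rfl⟩

lemma domain {B a b m : ℕ} {G H : (Fin B → Fin m → ℂ) → ℂ} (hG : G ∈ MP B m a)
    (hH : H ∈ MP B m b) (h0 : G ≠ 0) (h1 : H ≠ 0) : G * H ≠ 0 := by
  obtain ⟨p, hp⟩ := Function.ne_iff.1 h0
  obtain ⟨q, hq⟩ := Function.ne_iff.1 h1
  obtain ⟨r, hr⟩ := line hG p (fun j => q j - p j)
  obtain ⟨s, hs⟩ := line hH p (fun j => q j - p j)
  have hr0 : r ≠ 0 := by
    rintro rfl
    apply hp
    have := hr 0
    rw [Polynomial.eval_zero] at this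
    rw [Pi.zero_apply, this]
    congr 1
    funext j
    rw [zero_smul, add_zero]
  have hs0 : s ≠ 0 := by
    rintro rfl
    apply hq
    have := hs 1
    rw [Polynomial.eval_zero] at this
    rw [Pi.zero_apply, this]
    congr 1
    funext j
    rw [one_smul, add_sub_cancel]
  intro h
  refine mul_ne_zero hr0 hs0 (Polynomial.funext fun t => ?_)
  rw [Polynomial.eval_mul, hr, hs, Polynomial.eval_zero]
  exact congrFun h (fun j => p j + t • (q j - p j))

lemma perm {B a m : ℕ} {G : (Fin B → Fin m → ℂ) → ℂ} (hG : G ∈ MP B m a)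
    (σ : Equiv.Perm (Fin B)) : (fun p : Fin B → Fin m → ℂ => G (fun j => p (σ j))) ∈ MP B m a := by
  induction hG using Submodule.span_induction with
  | mem G hG =>
    obtain ⟨s, hs, rfl⟩ := hG
    apply Submodule.subset_span
    refine ⟨fun j => s (σ.symm j), fun j => hs _, ?_⟩
    funext p
    rw [← Equiv.prod_comp σ (fun j => eval (p j) (s (σ.symm j)))]
    refine Finset.prod_congr rfl (fun j _ => ?_)
    rw [Equiv.symm_apply_apply]
  | zero => exact Submodule.zero_mem _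
  | add G H _ _ h h' => exact Submodule.add_mem _ h h'
  | smul c G _ h => exact Submodule.smul_mem _ c h

lemma one_mem {B m : ℕ} : (1 : (Fin B → Fin m → ℂ) → ℂ) ∈ MP B m 0 := by
  apply Submodule.subset_span
  refine ⟨fun _ => 1, fun _ => isHomogeneous_one _ _, ?_⟩
  funext p
  simp

lemma prod_mem {B m c : ℕ} {ι : Type} (S : Finset ι) (f : ι → (Fin B → Fin m → ℂ) → ℂ)
    (hf : ∀ i ∈ S, f i ∈ MP B m c) : ∏ i ∈ S, f i ∈ MP B m (S.card * c) := by
  classical
  induction S using Finset.induction_on with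
  | empty =>
    rw [Finset.prod_empty, Finset.card_empty, zero_mul]
    exact one_mem
  | insert i S hi ih =>
    rw [Finset.prod_insert hi, Finset.card_insert_of_notMem hi]
    have h1 := MP_mul (hf i (Finset.mem_insert_self i S))
      (ih (fun j hj => hf j (Finset.mem_insert_of_mem hj)))
    have h2 : c + S.card * c = (S.card + 1) * c := by ring
    rwa [h2] at h1

lemma prod_ne {B m c : ℕ} {ι : Type} (S : Finset ι) (f : ι → (Fin B → Fin m → ℂ) → ℂ)
    (hf : ∀ i ∈ S, f i ∈ MP B m c) (h0 : ∀ i ∈ S, f i ≠ 0) : ∏ i ∈ S, f i ≠ 0 := by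
  classical
  induction S using Finset.induction_on with
  | empty =>
    rw [Finset.prod_empty]
    exact one_ne_zero
  | insert i S hi ih =>
    rw [Finset.prod_insert hi]
    exact domain (hf i (Finset.mem_insert_self i S))
      (prod_mem S f (fun j hj => hf j (Finset.mem_insert_of_mem hj)))
      (h0 i (Finset.mem_insert_self i S))
      (ih (fun j hj => hf j (Finset.mem_insert_of_mem hj))
        (fun j hj => h0 j (Finset.mem_insert_of_mem hj)))

lemma hw_mul {B m : ℕ} {u v : Fin m → ℕ} {G H : (Fin B → Fin m → ℂ) → ℂ}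
    (hG : HWF B m u G) (hH : HWF B m v H) : HWF B m (u + v) (G * H) := by
  intro g hg p
  have e : ∏ k, g k k ^ ((u + v) k) = (∏ k, g k k ^ u k) * ∏ k, g k k ^ v k := by
    rw [← Finset.prod_mul_distrib]
    refine Finset.prod_congr rfl fun k _ => ?_
    rw [Pi.add_apply, pow_add]
  rw [Pi.mul_apply, Pi.mul_apply, hG g hg, hH g hg, e]
  ring

lemma hw_one {B m : ℕ} : HWF B m 0 (1 : (Fin B → Fin m → ℂ) → ℂ) := by
  intro g _ p
  simp

lemma hw_prod {B m : ℕ} {u : Fin m → ℕ} {ι : Type} (S : Finset ι)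
    (f : ι → (Fin B → Fin m → ℂ) → ℂ) (hf : ∀ i ∈ S, HWF B m u (f i)) :
    HWF B m (S.card • u) (∏ i ∈ S, f i) := by
  classical
  induction S using Finset.induction_on with
  | empty =>
    rw [Finset.prod_empty, Finset.card_empty, zero_smul]
    exact hw_one
  | insert i S hi ih =>
    rw [Finset.prod_insert hi, Finset.card_insert_of_notMem hi]
    have h1 := hw_mul (hf i (Finset.mem_insert_self i S))
      (ih (fun j hj => hf j (Finset.mem_insert_of_mem hj)))
    have h2 : u + S.card • u = (S.card + 1) • u := by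
      rw [add_smul, one_smul, add_comm]
    rwa [h2] at h1

lemma hw_lin {B m : ℕ} {u : Fin m → ℕ} {G H : (Fin B → Fin m → ℂ) → ℂ} (x y : ℂ)
    (hG : HWF B m u G) (hH : HWF B m u H) : HWF B m u (x • G - y • H) := by
  intro g hg p
  rw [Pi.sub_apply, Pi.sub_apply, Pi.smul_apply, Pi.smul_apply, Pi.smul_apply, Pi.smul_apply,
    hG g hg, hH g hg]
  simp only [smul_eq_mul]
  ring

end Sp

/-- Row W3 from row W2. -/
theorem sep_of (H2 : WHyper) {B m i e : ℕ} (hi : 2 ≤ i) (him : i ≤ m) (hB : 2 * i + 1 ≤ B)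
    {nu : Fin m → ℕ} (G : (Fin B → Fin m → ℂ) → ℂ) (hG : G ∈ MP B m e) (hw : HWF B m nu G)
    (h0 : G ≠ 0) :
    Pos B (e + (B.factorial - 1) * (B - 1).choose (i - 1)) m
      (nu + ((B.factorial - 1) * B.choose i) • om m i) := by
  classical
  obtain ⟨S, hS⟩ : ∃ S : Finset (Equiv.Perm (Fin B)), S = Finset.univ.erase 1 := ⟨_, rfl⟩
  have hScard : S.card = B.factorial - 1 := by
    rw [hS, Finset.card_erase_of_mem (Finset.mem_univ _), Finset.card_univ, Fintype.card_perm,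
      Fintype.card_fin]
  have hex : ∀ σ : Equiv.Perm (Fin B), ∃ A A' : (Fin B → Fin m → ℂ) → ℂ, σ ≠ 1 →
      (A ∈ MP B m ((B - 1).choose (i - 1)) ∧
      A' ∈ MP B m ((B - 1).choose (i - 1)) ∧ HWF B m (B.choose i • om m i) A ∧
      HWF B m (B.choose i • om m i) A' ∧
      ∃ P, A P * A' (fun j => P (σ j)) ≠ A (fun j => P (σ j)) * A' P) := by
    intro σ
    by_cases h : σ = 1
    · exact ⟨0, 0, fun h' => absurd h h'⟩
    · obtain ⟨A, A', h'⟩ := H2 hi him hB σ h
      exact ⟨A, A', fun _ => h'⟩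
  choose A A' hA using hex
  -- the polynomials `D σ`
  obtain ⟨D, hD⟩ : ∃ D : Equiv.Perm (Fin B) → (Fin B → Fin m → ℂ) → ℂ, ∀ σ, D σ =
      A σ * (fun p : Fin B → Fin m → ℂ => A' σ (fun j => p (σ j))) -
        (fun p : Fin B → Fin m → ℂ => A σ (fun j => p (σ j))) * A' σ := ⟨_, fun _ => rfl⟩
  have hDm : ∀ σ ∈ S, D σ ∈ MP B m ((B - 1).choose (i - 1) + (B - 1).choose (i - 1)) := by
    intro σ hσ
    rw [hS, Finset.mem_erase] at hσ
    obtain ⟨a1, a2, _, _, _⟩ := hA σ hσ.1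
    rw [hD]
    exact Submodule.sub_mem _ (MP_mul a1 (Sp.perm a2 σ)) (MP_mul (Sp.perm a1 σ) a2)
  have hD0 : ∀ σ ∈ S, D σ ≠ 0 := by
    intro σ hσ
    rw [hS, Finset.mem_erase] at hσ
    obtain ⟨_, _, _, _, P, hP⟩ := hA σ hσ.1
    intro h
    apply hP
    have := congrFun h P
    rw [hD] at this
    exact sub_eq_zero.mp this
  -- a good point
  have hne : G * ∏ σ ∈ S, D σ ≠ 0 :=
    Sp.domain hG (Sp.prod_mem S D hDm) h0 (Sp.prod_ne S D hDm hD0)
  obtain ⟨P, hP⟩ := Function.ne_iff.1 hne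
  rw [Pi.mul_apply, Pi.zero_apply, Finset.prod_apply] at hP
  have hGP : G P ≠ 0 := left_ne_zero_of_mul hP
  have hDP : ∀ σ ∈ S, D σ P ≠ 0 := fun σ hσ =>
    Finset.prod_ne_zero_iff.mp (right_ne_zero_of_mul hP) σ hσ
  -- the factors
  obtain ⟨q, hq⟩ : ∃ q : Equiv.Perm (Fin B) → (Fin B → Fin m → ℂ) → ℂ, ∀ σ, q σ =
      A' σ (fun j => P (σ j)) • A σ - A σ (fun j => P (σ j)) • A' σ := ⟨_, fun _ => rfl⟩
  have hqm : ∀ σ ∈ S, q σ ∈ MP B m ((B - 1).choose (i - 1)) := by
    intro σ hσ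
    rw [hS, Finset.mem_erase] at hσ
    obtain ⟨a1, a2, _, _, _⟩ := hA σ hσ.1
    rw [hq]
    exact Submodule.sub_mem _ (Submodule.smul_mem _ _ a1) (Submodule.smul_mem _ _ a2)
  have hqw : ∀ σ ∈ S, HWF B m (B.choose i • om m i) (q σ) := by
    intro σ hσ
    rw [hS, Finset.mem_erase] at hσ
    obtain ⟨_, _, a3, a4, _⟩ := hA σ hσ.1
    rw [hq]
    exact Sp.hw_lin _ _ a3 a4
  obtain ⟨Q, hQ⟩ : ∃ Q : (Fin B → Fin m → ℂ) → ℂ, Q = G * ∏ σ ∈ S, q σ := ⟨_, rfl⟩
  have hQm : Q ∈ MP B m (e + (B.factorial - 1) * (B - 1).choose (i - 1)) := by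
    rw [hQ, ← hScard]
    exact MP_mul hG (Sp.prod_mem S q hqm)
  have hQw : HWF B m (nu + ((B.factorial - 1) * B.choose i) • om m i) Q := by
    rw [hQ, ← hScard, mul_smul]
    exact Sp.hw_mul hw (Sp.hw_prod S q hqw)
  have hQ1 : Q P ≠ 0 := by
    rw [hQ, Pi.mul_apply, Finset.prod_apply]
    refine mul_ne_zero hGP (Finset.prod_ne_zero_iff.mpr fun σ hσ => ?_)
    have h := hDP σ hσ
    intro h'
    apply h
    rw [hq] at h'
    rw [hD]
    show A σ P * A' σ (fun j => P (σ j)) - A σ (fun j => P (σ j)) * A' σ P = 0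
    rw [← h']
    show _ = A' σ (fun j => P (σ j)) * A σ P - A σ (fun j => P (σ j)) * A' σ P
    ring
  have hQ2 : ∀ σ : Equiv.Perm (Fin B), σ ≠ 1 → Q (fun j => P (σ j)) = 0 := by
    intro σ hσ
    have hmem : σ ∈ S := by
      rw [hS, Finset.mem_erase]
      exact ⟨hσ, Finset.mem_univ _⟩
    rw [hQ, Pi.mul_apply, Finset.prod_apply]
    have : q σ (fun j => P (σ j)) = 0 := by
      rw [hq]
      show A' σ (fun j => P (σ j)) * A σ (fun j => P (σ j)) -
        A σ (fun j => P (σ j)) * A' σ (fun j => P (σ j)) = 0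
      ring
    rw [Finset.prod_eq_zero hmem this, mul_zero]
  -- the symmetrisation
  obtain ⟨x, hx⟩ := exists_ptv Q hQm
  refine ⟨x, ?_, ?_⟩
  · intro g hg
    apply ptv_sep
    intro p
    rw [ptv_act, ptv_smul, hx, hx, Finset.mul_sum]
    refine Finset.sum_congr rfl (fun σ _ => ?_)
    exact hQw g hg (fun j => p (σ j))
  · intro hx0
    have h1 := hx P
    rw [hx0, ptv_zero, Finset.sum_eq_single 1] at h1
    · exact hQ1 h1.symm
    · intro σ _ hσ
      exact hQ2 σ hσ
    · intro h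
      exact absurd (Finset.mem_univ _) h

end Vale.Agent.P181.FR
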