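import Vale.Agent.P181.R2.H207.Eps

/-! Row S1 of P181.FewRowsInterior (helper130). -/

set_option autoImplicit false

open scoped TensorProduct

namespace Vale.Agent.P181.FR

open Vale.Agent.P181 Vale.Agent.P181.H280

/-- Foulkes' inequality for all partitions with `n + 3` rows and all gaps at least `C * a ^ 2`. -/
theorem simple (n : ℕ) : ∃ C : ℕ, ∀ (a b : ℕ) (lam : Fin (n + 3) → ℕ), ∑ i, lam i = a * b →
    (∀ i : Fin (n + 2), lam i.succ + C * a ^ 2 ≤ lam i.castSucc) →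
    C * a ^ 2 ≤ lam (Fin.last _) →
    plethMult a b (n + 3) lam ≤ plethMult b a (n + 3) lam := by
  obtain ⟨c, hc, h⟩ := final_eps n (ε := 1 / 2) (by norm_num)
  obtain ⟨C, hC⟩ := exists_nat_ge c
  have he : ∀ a : ℕ, (a : ℝ) ^ ((3 : ℝ) / 2 + 1 / 2) = (a : ℝ) ^ 2 := by
    intro a
    rw [← Real.rpow_natCast]
    norm_num
  have hle : ∀ a : ℕ, c * (a : ℝ) ^ 2 ≤ ((C * a ^ 2 : ℕ) : ℝ) := by
    intro a
    rw [Nat.cast_mul, Nat.cast_pow]
    exact mul_le_mul_of_nonneg_right hC (by positivity)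
  refine ⟨C, fun a b lam hsum hl hlast => h a b lam hsum ?_ (fun i => ?_) ?_⟩
  · have h1 : lam 1 + C * a ^ 2 ≤ lam 0 := hl 0
    have h2 : ((lam 1 : ℝ)) + ((C * a ^ 2 : ℕ) : ℝ) ≤ (lam 0 : ℝ) := by exact_mod_cast h1
    linarith [hle a]
  · have h1 : lam i.succ.succ + C * a ^ 2 ≤ lam i.succ.castSucc := hl i.succ
    have h2 : ((lam i.succ.succ : ℝ)) + ((C * a ^ 2 : ℕ) : ℝ) ≤ (lam i.succ.castSucc : ℝ) := by
      exact_mod_cast h1
    rw [he]
    linarith [hle a]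
  · have h2 : ((C * a ^ 2 : ℕ) : ℝ) ≤ (lam (Fin.last _) : ℝ) := by exact_mod_cast hlast
    rw [he]
    linarith [hle a]

end Vale.Agent.P181.FR
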