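import Vale.Agent.P181.R2.H959.WDefs

/-!
# P181, row W4: positivity of all weights with one gap at least a constant, from rows W1 and W3
-/

set_option autoImplicit false

open scoped TensorProduct

namespace Vale.Agent.P181.FR

open Vale.Agent.P181 Vale.Agent.P181.H280

/-- Row W1. -/
def WCyc : Prop := ∀ {B m e : ℕ} (_ : m ≤ B) (_ : 0 < B) (g : ℕ → ℕ)
    (_ : ∑ j ∈ Finset.Icc 1 m, j * g j = e * B),
    ∃ G ∈ MP B m e, HWF B m (gw m g) G ∧ G ≠ 0

/-- Row W3. -/
def WSep : Prop := ∀ {B m i e : ℕ} (_ : 2 ≤ i) (_ : i ≤ m) (_ : 2 * i + 1 ≤ B) {nu : Fin m → ℕ}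
    (G : (Fin B → Fin m → ℂ) → ℂ) (_ : G ∈ MP B m e) (_ : HWF B m nu G) (_ : G ≠ 0),
    Pos B (e + (B.factorial - 1) * (B - 1).choose (i - 1)) m
      (nu + ((B.factorial - 1) * B.choose i) • om m i)

lemma gw_update {m i : ℕ} (him : i ≤ m) (g : ℕ → ℕ) {K : ℕ} (hK : K ≤ g i) :
    gw m (Function.update g i (g i - K)) + K • om m i = gw m g := by
  funext k
  rw [Pi.add_apply, Pi.smul_apply, smul_eq_mul]
  unfold gw om
  by_cases hk : (k : ℕ) < i
  · have hmem : i ∈ Finset.Ioc (k : ℕ) m := Finset.mem_Ioc.mpr ⟨hk, him⟩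
    rw [← Finset.add_sum_erase _ _ hmem, ← Finset.add_sum_erase _ (fun j => g j) hmem,
      Function.update_self]
    have h1 : ∑ j ∈ (Finset.Ioc (k : ℕ) m).erase i, Function.update g i (g i - K) j =
        ∑ j ∈ (Finset.Ioc (k : ℕ) m).erase i, g j := by
      refine Finset.sum_congr rfl (fun j hj => ?_)
      rw [Function.update_of_ne (Finset.ne_of_mem_erase hj)]
    rw [h1]
    simp only [hk, if_true]
    omega
  · have h1 : ∑ j ∈ Finset.Ioc (k : ℕ) m, Function.update g i (g i - K) j =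
        ∑ j ∈ Finset.Ioc (k : ℕ) m, g j := by
      refine Finset.sum_congr rfl (fun j hj => ?_)
      rw [Finset.mem_Ioc] at hj
      rw [Function.update_of_ne (by omega)]
    rw [h1]
    simp [hk]

lemma sum_update {m i : ℕ} (hi : 1 ≤ i) (him : i ≤ m) (g : ℕ → ℕ) {K : ℕ} (hK : K ≤ g i) :
    ∑ j ∈ Finset.Icc 1 m, j * Function.update g i (g i - K) j + i * K =
      ∑ j ∈ Finset.Icc 1 m, j * g j := by
  have hmem : i ∈ Finset.Icc 1 m := Finset.mem_Icc.mpr ⟨hi, him⟩
  rw [← Finset.add_sum_erase _ _ hmem, ← Finset.add_sum_erase _ (fun j => j * g j) hmem,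
    Function.update_self]
  have h1 : ∑ j ∈ (Finset.Icc 1 m).erase i, j * Function.update g i (g i - K) j =
      ∑ j ∈ (Finset.Icc 1 m).erase i, j * g j := by
    refine Finset.sum_congr rfl (fun j hj => ?_)
    rw [Function.update_of_ne (Finset.ne_of_mem_erase hj)]
  rw [h1]
  have h2 : i * (g i - K) + i * K = i * g i := by
    rw [← Nat.mul_add]
    congr 1
    omega
  omega

/-- Row W4 from rows W1 and W3. -/
theorem sym_pos_of (H1 : WCyc) (H3 : WSep) {B m i : ℕ} (hi : 2 ≤ i) (him : i ≤ m) (hmB : m ≤ B)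
    (hB : 2 * i + 1 ≤ B) :
    ∃ K : ℕ, ∀ (a : ℕ) (g : ℕ → ℕ), K ≤ a → K ≤ g i →
      ∑ j ∈ Finset.Icc 1 m, j * g j = a * B → Pos B a m (gw m g) := by
  obtain ⟨K0, hK0⟩ : ∃ K0, K0 = (B.factorial - 1) * (B - 1).choose (i - 1) := ⟨_, rfl⟩
  obtain ⟨K1, hK1⟩ : ∃ K1, K1 = (B.factorial - 1) * B.choose i := ⟨_, rfl⟩
  have hchoose : i * B.choose i = B * (B - 1).choose (i - 1) := by
    have h := Nat.add_one_mul_choose_eq (B - 1) (i - 1)
    have e1 : B - 1 + 1 = B := by omega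
    have e2 : i - 1 + 1 = i := by omega
    rw [e1, e2] at h
    rw [h, mul_comm]
  have hKK : i * K1 = B * K0 := by
    rw [hK0, hK1]
    calc i * ((B.factorial - 1) * B.choose i) = (B.factorial - 1) * (i * B.choose i) := by ring
      _ = (B.factorial - 1) * (B * (B - 1).choose (i - 1)) := by rw [hchoose]
      _ = B * ((B.factorial - 1) * (B - 1).choose (i - 1)) := by ring
  refine ⟨K0 + K1, ?_⟩
  intro a g ha hg hsum
  have hKg : K1 ≤ g i := by omega
  have hs := sum_update (show 1 ≤ i by omega) him g hKg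
  obtain ⟨e, he⟩ : ∃ e, a = e + K0 := ⟨a - K0, by omega⟩
  have hs' : ∑ j ∈ Finset.Icc 1 m, j * Function.update g i (g i - K1) j = e * B := by
    have h1 : a * B = e * B + B * K0 := by rw [he]; ring
    omega
  obtain ⟨G, hG, hw, h0⟩ := H1 hmB (by omega) (Function.update g i (g i - K1)) hs'
  have h := H3 hi him hB G hG hw h0
  rw [← hK0, ← hK1, gw_update him g hKg, ← he] at h
  exact h

end Vale.Agent.P181.FR
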