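import Vale.Agent.P181.R2.H379.Hyper
import Vale.Agent.P181.R2.H130.SymPos
import Vale.Agent.P181.R2.H130.Sep

/-!
# P181, rows W3 and W4, unconditional
-/

set_option autoImplicit false

open scoped TensorProduct

namespace Vale.Agent.P181.FR

open Vale.Agent.P181 Vale.Agent.P181.H280

/-- Row W3. -/
theorem sep {B m i e : ℕ} (hi : 2 ≤ i) (him : i ≤ m) (hB : 2 * i + 1 ≤ B) {nu : Fin m → ℕ}
    (G : (Fin B → Fin m → ℂ) → ℂ) (hG : G ∈ MP B m e) (hw : HWF B m nu G) (h0 : G ≠ 0) :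
    Pos B (e + (B.factorial - 1) * (B - 1).choose (i - 1)) m
      (nu + ((B.factorial - 1) * B.choose i) • om m i) :=
  sep_of (fun h1 h2 h3 σ h4 => hyper h1 h2 h3 σ h4) hi him hB G hG hw h0

/-- Row W4. -/
theorem sym_pos {B m i : ℕ} (hi : 2 ≤ i) (him : i ≤ m) (hmB : m ≤ B) (hB : 2 * i + 1 ≤ B) :
    ∃ K : ℕ, ∀ (a : ℕ) (g : ℕ → ℕ), K ≤ a → K ≤ g i →
      ∑ j ∈ Finset.Icc 1 m, j * g j = a * B → Pos B a m (gw m g) :=
  sym_pos_of (fun h1 h2 g h3 => cyc h1 h2 g h3) (fun h1 h2 h3 _ G h4 h5 h6 => sep h1 h2 h3 G h4 h5 h6)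
    hi him hmB hB

end Vale.Agent.P181.FR
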