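import Vale.Agent.P181.R2.H182.VDefs
import Vale.Agent.P181.R2.H130.SymPos2

/-!
# P181, theorem V, row V4: the separating function of a block
-/

set_option autoImplicit false

open scoped TensorProduct

namespace Vale.Agent.P181.VT

open Vale.Agent.P181 Vale.Agent.P181.H280 Vale.Agent.P181.FR Vale.Agent.P181.FR.Cyc
  Vale.Agent.P181.FR.Hyp

namespace V4H

/-- The product of all maximal minors. -/
noncomputable def G0 (B m : ℕ) : (Fin B → Fin m → ℂ) → ℂ :=
  ∏ T ∈ Finset.powersetCard m (Finset.univ : Finset (Fin B)), Dm (le_refl m) T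

theorem G0_MP {B m : ℕ} (hm : 1 ≤ m) : G0 B m ∈ MP B m ((B - 1).choose (m - 1)) := by
  have h1 := prod_MQ (le_refl m) (Finset.powersetCard m (Finset.univ : Finset (Fin B)))
    (fun T hT => (Finset.mem_powersetCard.1 hT).2)
  have e : ∑ T ∈ Finset.powersetCard m (Finset.univ : Finset (Fin B)), ind T =
      fun _ => (B - 1).choose (m - 1) := funext fun b => count_mem hm b
  rw [e, MQ_const] at h1
  exact h1

theorem G0_wt {B m : ℕ} : HWF B m (B.choose m • om m m) (G0 B m) := by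
  have h1 := prod_wt (le_refl m) (Finset.powersetCard m (Finset.univ : Finset (Fin B)))
    (fun T hT => (Finset.mem_powersetCard.1 hT).2)
  rw [Finset.card_powersetCard, Finset.card_univ, Fintype.card_fin] at h1
  exact h1

theorem G0_ne {B m : ℕ} : G0 B m ≠ 0 := by
  intro h
  have h1 := congrFun h (mom B m)
  unfold G0 at h1
  rw [Finset.prod_apply, Pi.zero_apply, Finset.prod_eq_zero_iff] at h1
  obtain ⟨T, hT, hT0⟩ := h1
  have hc := (Finset.mem_powersetCard.1 hT).2
  unfold Dm at hT0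
  rw [dif_pos hc] at hT0
  exact mn_mom (le_refl m) _ (T.orderEmbOfFin hc).injective hT0

theorem G0_mn {B m : ℕ} {z : Fin B → Fin m → ℂ} (hz : G0 B m z ≠ 0) {f : Fin m → Fin B}
    (hf : StrictMono f) : (Matrix.of fun j k : Fin m => z (f j) k).det ≠ 0 := by
  classical
  have hc : (Finset.univ.image f).card = m := by
    rw [Finset.card_image_of_injective _ hf.injective, Finset.card_univ, Fintype.card_fin]
  have h1 : Dm (le_refl m) (Finset.univ.image f) z ≠ 0 := by
    unfold G0 at hz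
    rw [Finset.prod_apply] at hz
    exact Finset.prod_ne_zero_iff.1 hz _
      (Finset.mem_powersetCard.2 ⟨Finset.subset_univ _, hc⟩)
  unfold Dm at h1
  rw [dif_pos hc, ← Finset.orderEmbOfFin_unique hc
    (fun x => Finset.mem_image_of_mem f (Finset.mem_univ x)) hf] at h1
  exact h1

theorem G0_zero {B m : ℕ} (hm : 2 ≤ m) (hmB : m ≤ B) {z : Fin B → Fin m → ℂ}
    {ρ : Fin B → Fin B} (hρ : ¬ Function.Injective ρ) : G0 B m (fun s => z (ρ s)) = 0 := by
  classical
  unfold Function.Injective at hρ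
  push Not at hρ
  obtain ⟨s, t, hst, hne⟩ := hρ
  obtain ⟨T, hT, hc⟩ := Finset.exists_superset_card_eq (s := {s, t}) (n := m)
    (by rw [Finset.card_pair hne]; exact hm) (by rw [Fintype.card_fin]; exact hmB)
  unfold G0
  rw [Finset.prod_apply]
  refine Finset.prod_eq_zero (Finset.mem_powersetCard.2 ⟨Finset.subset_univ _, hc⟩) ?_
  unfold Dm
  rw [dif_pos hc]
  have hs : s ∈ Set.range (T.orderEmbOfFin hc) := by
    rw [Finset.range_orderEmbOfFin]
    exact hT (Finset.mem_insert_self _ _)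
  have ht : t ∈ Set.range (T.orderEmbOfFin hc) := by
    rw [Finset.range_orderEmbOfFin]
    exact hT (Finset.mem_insert_of_mem (Finset.mem_singleton_self _))
  obtain ⟨x, hx⟩ := hs
  obtain ⟨y, hy⟩ := ht
  have hxy : x ≠ y := by
    rintro rfl
    exact hne (hx.symm.trans hy)
  unfold mn
  refine Matrix.det_zero_of_row_eq hxy ?_
  funext k
  rw [Matrix.of_apply, Matrix.of_apply, hx, hy]
  show z (ρ s) _ = z (ρ t) _
  rw [hst]

end V4H

open V4H

/-- V4: separation. -/
theorem v4 : ∀ r : ℕ, 1 ≤ r → ∃ (N0 N1 : ℕ) (q : (Fin (nn r) → Fin (r + 1) → ℂ) → ℂ)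
    (z : Fin (nn r) → Fin (r + 1) → ℂ), SepQ r N0 N1 q z := by
  classical
  intro r hr
  obtain ⟨B, hB⟩ : ∃ B, B = nn r := ⟨_, rfl⟩
  obtain ⟨S, hS⟩ : ∃ S : Finset (Equiv.Perm (Fin (nn r))), S = Finset.univ.erase 1 := ⟨_, rfl⟩
  have hB1 : 2 * (r + 1) + 1 ≤ nn r := by
    show 2 * (r + 1) + 1 ≤ (r + 1) + (r + (r + 1))
    omega
  have hex : ∀ σ : Equiv.Perm (Fin (nn r)), ∃ A A' : (Fin (nn r) → Fin (r + 1) → ℂ) → ℂ, σ ≠ 1 →
      (A ∈ MP (nn r) (r + 1) ((nn r - 1).choose (r + 1 - 1)) ∧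
      A' ∈ MP (nn r) (r + 1) ((nn r - 1).choose (r + 1 - 1)) ∧
      HWF (nn r) (r + 1) ((nn r).choose (r + 1) • om (r + 1) (r + 1)) A ∧
      HWF (nn r) (r + 1) ((nn r).choose (r + 1) • om (r + 1) (r + 1)) A' ∧
      ∃ P, A P * A' (fun j => P (σ j)) ≠ A (fun j => P (σ j)) * A' P) := by
    intro σ
    by_cases h : σ = 1
    · exact ⟨0, 0, fun h' => absurd h h'⟩
    · obtain ⟨A, A', h'⟩ := hyper (B := nn r) (m := r + 1) (i := r + 1) (by omega) (le_refl _)
        hB1 σ h
      exact ⟨A, A', fun _ => h'⟩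
  choose A A' hA using hex
  obtain ⟨D, hD⟩ : ∃ D : Equiv.Perm (Fin (nn r)) → (Fin (nn r) → Fin (r + 1) → ℂ) → ℂ,
      ∀ σ, D σ = A σ * (fun p : Fin (nn r) → Fin (r + 1) → ℂ => A' σ (fun j => p (σ j))) -
        (fun p : Fin (nn r) → Fin (r + 1) → ℂ => A σ (fun j => p (σ j))) * A' σ :=
    ⟨_, fun _ => rfl⟩
  have hDm : ∀ σ ∈ S, D σ ∈ MP (nn r) (r + 1)
      ((nn r - 1).choose (r + 1 - 1) + (nn r - 1).choose (r + 1 - 1)) := by
    intro σ hσ
    rw [hS, Finset.mem_erase] at hσ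
    obtain ⟨a1, a2, _, _, _⟩ := hA σ hσ.1
    rw [hD]
    exact Submodule.sub_mem _ (MP_mul a1 (Sp.perm a2 σ)) (MP_mul (Sp.perm a1 σ) a2)
  have hD0 : ∀ σ ∈ S, D σ ≠ 0 := by
    intro σ hσ
    rw [hS, Finset.mem_erase] at hσ
    obtain ⟨_, _, _, _, P, hP⟩ := hA σ hσ.1
    intro h
    apply hP
    have := congrFun h P
    rw [hD] at this
    exact sub_eq_zero.mp this
  have hG : G0 (nn r) (r + 1) ∈ MP (nn r) (r + 1) ((nn r - 1).choose (r + 1 - 1)) :=
    G0_MP (by omega)
  have hne : G0 (nn r) (r + 1) * ∏ σ ∈ S, D σ ≠ 0 :=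
    Sp.domain hG (Sp.prod_mem S D hDm) G0_ne (Sp.prod_ne S D hDm hD0)
  obtain ⟨P, hP⟩ := Function.ne_iff.1 hne
  rw [Pi.mul_apply, Pi.zero_apply, Finset.prod_apply] at hP
  have hGP : G0 (nn r) (r + 1) P ≠ 0 := left_ne_zero_of_mul hP
  have hDP : ∀ σ ∈ S, D σ P ≠ 0 := fun σ hσ =>
    Finset.prod_ne_zero_iff.mp (right_ne_zero_of_mul hP) σ hσ
  obtain ⟨q, hq⟩ : ∃ q : Equiv.Perm (Fin (nn r)) → (Fin (nn r) → Fin (r + 1) → ℂ) → ℂ,
      ∀ σ, q σ = A' σ (fun j => P (σ j)) • A σ - A σ (fun j => P (σ j)) • A' σ :=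
    ⟨_, fun _ => rfl⟩
  have hqm : ∀ σ ∈ S, q σ ∈ MP (nn r) (r + 1) ((nn r - 1).choose (r + 1 - 1)) := by
    intro σ hσ
    rw [hS, Finset.mem_erase] at hσ
    obtain ⟨a1, a2, _, _, _⟩ := hA σ hσ.1
    rw [hq]
    exact Submodule.sub_mem _ (Submodule.smul_mem _ _ a1) (Submodule.smul_mem _ _ a2)
  have hqw : ∀ σ ∈ S, HWF (nn r) (r + 1) ((nn r).choose (r + 1) • om (r + 1) (r + 1)) (q σ) := by
    intro σ hσ
    rw [hS, Finset.mem_erase] at hσ
    obtain ⟨_, _, a3, a4, _⟩ := hA σ hσ.1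
    rw [hq]
    exact Sp.hw_lin _ _ a3 a4
  refine ⟨(nn r - 1).choose (r + 1 - 1) + S.card * (nn r - 1).choose (r + 1 - 1),
    (nn r).choose (r + 1) + S.card * (nn r).choose (r + 1),
    G0 (nn r) (r + 1) * ∏ σ ∈ S, q σ, P, ?_, ?_, ?_, ?_, ?_⟩
  · exact MP_mul hG (Sp.prod_mem S q hqm)
  · rw [add_smul, mul_smul]
    exact Sp.hw_mul G0_wt (Sp.hw_prod S q hqw)
  · rw [Pi.mul_apply, Finset.prod_apply]
    refine mul_ne_zero hGP (Finset.prod_ne_zero_iff.mpr fun σ hσ => ?_)
    have h := hDP σ hσ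
    intro h'
    apply h
    rw [hq] at h'
    rw [hD]
    show A σ P * A' σ (fun j => P (σ j)) - A σ (fun j => P (σ j)) * A' σ P = 0
    rw [← h']
    show _ = A' σ (fun j => P (σ j)) * A σ P - A σ (fun j => P (σ j)) * A' σ P
    ring
  · intro ρ hρ
    rw [Pi.mul_apply]
    by_cases hinj : Function.Injective ρ
    · obtain ⟨σ, hσ⟩ : ∃ σ : Equiv.Perm (Fin (nn r)), ∀ x, σ x = ρ x :=
        ⟨Equiv.ofBijective ρ (Finite.injective_iff_bijective.1 hinj), fun _ => rfl⟩
      have hσ1 : σ ≠ 1 := by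
        rintro rfl
        apply hρ
        funext x
        rw [← hσ x]
        rfl
      have hmem : σ ∈ S := by
        rw [hS, Finset.mem_erase]
        exact ⟨hσ1, Finset.mem_univ _⟩
      have e : (fun s => P (ρ s)) = fun s => P (σ s) := by
        funext s
        rw [hσ s]
      rw [e, Finset.prod_apply]
      have : q σ (fun j => P (σ j)) = 0 := by
        rw [hq]
        show A' σ (fun j => P (σ j)) * A σ (fun j => P (σ j)) -
          A σ (fun j => P (σ j)) * A' σ (fun j => P (σ j)) = 0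
        ring
      rw [Finset.prod_eq_zero hmem this, mul_zero]
    · rw [G0_zero (by omega) (by omega) hinj, zero_mul]
  · have hWA : (WA P).det ≠ 0 := by
      have hf : StrictMono (fun i : Fin (r + 1) => (Fin.castAdd (r + (r + 1)) i : Fin (nn r))) :=
        fun a b h => h
      exact G0_mn hGP hf
    have hWC : (WC P).det ≠ 0 := by
      have hf : StrictMono (fun v : Fin (r + 1) =>
          (Fin.natAdd (r + 1) (Fin.natAdd r v) : Fin (nn r))) := by
        intro a b h
        show (r + 1) + (r + (a : ℕ)) < (r + 1) + (r + (b : ℕ))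
        have : (a : ℕ) < b := h
        omega
      exact G0_mn hGP hf
    have hWB : ∀ i, (WB P i).det ≠ 0 := by
      intro i
      obtain ⟨f, hf⟩ : ∃ f : Fin (r + 1) → Fin (nn r), f = Fin.cons (Fin.castAdd _ i)
        (fun u : Fin r => Fin.natAdd (r + 1) (Fin.castAdd (r + 1) u)) := ⟨_, rfl⟩
      have hf0 : f 0 = Fin.castAdd _ i := by rw [hf]; rfl
      have hfs : ∀ u : Fin r, f u.succ = Fin.natAdd (r + 1) (Fin.castAdd (r + 1) u) := by
        intro u
        rw [hf]
        rfl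
      have hmono : StrictMono f := by
        rw [Fin.strictMono_iff_lt_succ]
        intro u
        rw [hfs]
        rcases Fin.eq_zero_or_eq_succ (Fin.castSucc u) with h | ⟨v, hv⟩
        · rw [h, hf0, Fin.lt_def]
          show (i : ℕ) < (r + 1) + (u : ℕ)
          have := i.2
          omega
        · rw [hv, hfs, Fin.lt_def]
          show (r + 1) + (v : ℕ) < (r + 1) + (u : ℕ)
          have h1 : (u : ℕ) = v + 1 := by
            have := congrArg Fin.val hv
            simpa using this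
          omega
      have e : WB P i = Matrix.of fun j k => P (f j) k := by
        funext j
        refine Fin.cases ?_ (fun u => ?_) j
        · funext k
          rw [Matrix.of_apply, hf0]
          rfl
        · funext k
          rw [Matrix.of_apply, hfs]
          rfl
      rw [e]
      exact G0_mn hGP hmono
    unfold Yb
    rw [Matrix.det_mul, Matrix.det_adjugate, Matrix.det_diagonal]
    refine mul_ne_zero (pow_ne_zero _ hWA) (Finset.prod_ne_zero_iff.2 fun i _ => ?_)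
    exact mul_ne_zero (hWB i) hWC

end Vale.Agent.P181.VT
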