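import Vale.Agent.P181.R2.H182.VDefs
import Vale.Agent.P181.R2.H280.MixQS
import Vale.Agent.P181.R2.H822.Q1
import Vale.Agent.P181.R2.H130.Q2
import Vale.Agent.P181.R2.H350.RichMix
import Vale.Agent.P181.R2.H415.DimGe
import Vale.Agent.P181.R2.H539.Fac

/-!
# P181, theorem V, row V9: the assembly
-/

set_option autoImplicit false

open scoped TensorProduct

namespace Vale.Agent.P181.VT

open Vale.Agent.P181 Vale.Agent.P181.H280 Vale.Agent.P181.FR Vale.Agent.P181.FR.W11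

namespace V9H

/-- Row V7. -/
def V7P : Prop := ∀ r : ℕ, 1 ≤ r → ∃ N0 N1 : ℕ, ∀ k c : ℕ,
  Module.finrank ℂ (Pleth (k * nn r) c (r + 1)) ≤
    (k * nn r * c + 1) ^ ((r + 1) * (r + 1)) *
      plethMult (k * nn r) (3 * (r + 1) * c + N0) (r + 1)
        ((3 * (k * nn r * c) + k * N1) • om (r + 1) (r + 1))

/-- The numbers of V9. -/
def NumP : Prop := ∀ (n : ℕ) {δ κ : ℝ} (_ : 0 < δ) (_ : 0 < κ) (K C1 N0 N1 N : ℕ) (_ : 0 < N),
  ∃ A : ℕ, ∀ a b : ℕ, A ≤ a → (1 + δ) * a ≤ b → b ≤ C1 * a → ∃ k c h s : ℕ,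
    (n + 3) ∣ k * N ∧ K ≤ k * N ∧ K + (3 * (n + 3) * c + N0) ≤ a ∧ k * N + K ≤ b ∧
    ((3 * (k * N * c) + k * N1 + K * a : ℕ) : ℝ) ≤ κ * (a * b) ∧
    (n + 2) * h ≤ c ∧ s * (k * N) ≤ h ^ (n + 2) ∧
    ∀ L : ℕ, a.factorial * L ≤ ((b + 1) ^ (n + 2) + a) ^ a →
      L * (k * N * c + 1) ^ ((n + 3) * (n + 3)) ≤ s ^ (k * N)

theorem mix (n : ℕ) : ∃ C : ℕ,
    ∀ (a b q s : ℕ) (lam : Fin (n + 3) → ℕ), 1 ≤ q → 2 ≤ s → b + 1 ≤ s ^ q → C * (q * s) ≤ a →
    C * (a * q) ≤ b → C * (a * q ^ 2 * s) ≤ lam 2 → C * ((a * q) ^ 3 * s) ≤ lam 1 * lam 2 →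
    plethMult a b (n + 3) lam ≤ plethMult b a (n + 3) lam :=
  QS280.all_mix_qs_of
    (fun {m i} hi him => H822Q.gap_mix_qs_of hi him (pos_all (by omega) him) (rich_mix hi him))
    (fun {m i} hi him => gap_qs_of hi him (pos_all (by omega) him)
      (rich_rect_of rich_of_family family hi him)) n

/-- The case `b ≥ C a`. -/
theorem large (n : ℕ) {κ : ℝ} (hκ : 0 < κ) : ∃ C A : ℕ, ∀ (a b : ℕ) (lam : Fin (n + 3) → ℕ),
    A ≤ a → C * a ≤ b → a ≤ b → κ * (a * b) ≤ lam 1 → κ * (a * b) ≤ lam 2 →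
    plethMult a b (n + 3) lam ≤ plethMult b a (n + 3) lam := by
  obtain ⟨C, hC⟩ := mix n
  obtain ⟨T, hT⟩ : ∃ T : ℕ, 256 * C / κ ^ 2 + 64 * C / κ + 16 * C + 1 ≤ (T : ℝ) :=
    exists_nat_ge _
  refine ⟨4 * C, T * T + 1, fun a b lam hA hCb hab h1 h2 => ?_⟩
  by_cases hq : (a - 1) ^ 2 ≤ b
  · exact foulkes_quadratic hq lam
  push Not at hq
  have ha1 : 1 ≤ a := by omega
  obtain ⟨s, hs⟩ : ∃ s, s = Nat.sqrt a + 1 := ⟨_, rfl⟩
  have hs1 : a < s * s := by rw [hs]; exact Nat.lt_succ_sqrt a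
  have hsq : Nat.sqrt a * Nat.sqrt a ≤ a := Nat.sqrt_le a
  have hsq1 : 1 ≤ Nat.sqrt a := by
    rw [Nat.le_sqrt]
    omega
  have hs4 : s * s ≤ 4 * a := by
    have h3 : s ≤ 2 * Nat.sqrt a := by omega
    calc s * s ≤ (2 * Nat.sqrt a) * (2 * Nat.sqrt a) := Nat.mul_le_mul h3 h3
      _ = 4 * (Nat.sqrt a * Nat.sqrt a) := by ring
      _ ≤ 4 * a := Nat.mul_le_mul_left _ hsq
  have hTs : T ≤ s := by
    by_contra hc
    push Not at hc
    have : s * s ≤ T * T := Nat.mul_le_mul hc.le hc.le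
    omega
  have hTsa : T * s ≤ 4 * a := (Nat.mul_le_mul_right _ hTs).trans hs4
  have hTsR : (T : ℝ) * s ≤ 4 * a := by exact_mod_cast hTsa
  have hs0 : (0 : ℝ) ≤ s := Nat.cast_nonneg _
  have ha0 : (0 : ℝ) ≤ a := Nat.cast_nonneg _
  have hC0 : (0 : ℝ) ≤ C := Nat.cast_nonneg _
  have habR : (a : ℝ) ≤ b := by exact_mod_cast hab
  have t1 : (16 * C : ℝ) ≤ T := by
    have : (0 : ℝ) ≤ 256 * C / κ ^ 2 := by positivity
    have : (0 : ℝ) ≤ 64 * C / κ := by positivity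
    linarith
  have t2 : (64 * C : ℝ) ≤ κ * T := by
    have h3 : (64 * C / κ : ℝ) ≤ T := by
      have : (0 : ℝ) ≤ 256 * C / κ ^ 2 := by positivity
      linarith
    rw [div_le_iff₀ hκ] at h3
    linarith
  have t3 : (256 * C : ℝ) ≤ κ ^ 2 * T := by
    have h3 : (256 * C / κ ^ 2 : ℝ) ≤ T := by
      have : (0 : ℝ) ≤ 64 * C / κ := by positivity
      linarith
    rw [div_le_iff₀ (by positivity)] at h3
    linarith
  have hb4 : b + 1 ≤ s ^ 4 := by
    have h3 : (a - 1) ^ 2 ≤ a * a := by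
      rw [pow_two]
      exact Nat.mul_le_mul (Nat.sub_le _ _) (Nat.sub_le _ _)
    calc b + 1 ≤ a * a := by omega
      _ ≤ (s * s) * (s * s) := Nat.mul_le_mul hs1.le hs1.le
      _ = s ^ 4 := by ring
  have e0 : κ * (a * a) ≤ κ * (a * b) :=
    mul_le_mul_of_nonneg_left (mul_le_mul_of_nonneg_left habR ha0) hκ.le
  refine hC a b 4 s lam (by norm_num) (by omega) hb4 ?_ ?_ ?_ ?_
  · have h3 : (C * (4 * s) : ℝ) ≤ a := by nlinarith
    exact_mod_cast h3
  · calc C * (a * 4) = 4 * C * a := by ring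
      _ ≤ b := hCb
  · have h3 : (C * (a * 4 ^ 2 * s) : ℝ) ≤ lam 2 := by
      have h4 : (64 * C : ℝ) * s ≤ κ * (4 * a) := by
        calc (64 * C : ℝ) * s ≤ κ * T * s := mul_le_mul_of_nonneg_right t2 hs0
          _ = κ * (T * s) := by ring
          _ ≤ κ * (4 * a) := mul_le_mul_of_nonneg_left hTsR hκ.le
      have h5 : (C * (a * 4 ^ 2 * s) : ℝ) ≤ κ * (a * a) := by
        have h6 := mul_le_mul_of_nonneg_left h4 ha0
        nlinarith
      linarith
    exact_mod_cast h3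
  · have h3 : (C * ((a * 4) ^ 3 * s) : ℝ) ≤ lam 1 * lam 2 := by
      have h4 : (256 * C : ℝ) * s ≤ κ ^ 2 * (4 * a) := by
        calc (256 * C : ℝ) * s ≤ κ ^ 2 * T * s := mul_le_mul_of_nonneg_right t3 hs0
          _ = κ ^ 2 * (T * s) := by ring
          _ ≤ κ ^ 2 * (4 * a) := mul_le_mul_of_nonneg_left hTsR (by positivity)
      have h5 : (C * ((a * 4) ^ 3 * s) : ℝ) ≤ (κ * (a * a)) * (κ * (a * a)) := by
        have h6 := mul_le_mul_of_nonneg_left h4 (show (0 : ℝ) ≤ a ^ 3 by positivity)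
        nlinarith
      have h7 : (κ * (a * a)) * (κ * (a * a)) ≤ (lam 1 : ℝ) * lam 2 :=
        mul_le_mul (e0.trans h1) (e0.trans h2) (by positivity) (Nat.cast_nonneg _)
      linarith
    exact_mod_cast h3

end V9H

open V9H

/-- V9 from V7 and the numbers. -/
theorem v9_of (V7 : V7P) (Num : NumP) : ∀ (n : ℕ) {δ κ : ℝ}, 0 < δ → 0 < κ → ∃ A : ℕ,
    ∀ (a b : ℕ) (lam : Fin (n + 3) → ℕ), A ≤ a → (1 + δ) * a ≤ b →
    κ * (a * b) ≤ lam (Fin.last _) →
    plethMult a b (n + 3) lam ≤ plethMult b a (n + 3) lam := by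
  intro n δ κ hδ hκ
  obtain ⟨C1, A1, hlarge⟩ := large n hκ
  obtain ⟨N0, N1, hV7⟩ := V7 (n + 2) (by omega)
  obtain ⟨K, hK0, hcore⟩ := gap_coreY (m := n + 3) (i := n + 3) (by omega) (le_refl _)
    (pos_all (by omega) (le_refl _))
  obtain ⟨A2, hnum⟩ := Num n hδ hκ K C1 N0 N1 (nn (n + 2)) (Nat.succ_pos _)
  refine ⟨A1 + A2, fun a b lam hA hab hlam => ?_⟩
  by_cases hz : plethMult a b (n + 3) lam = 0
  · rw [hz]
    exact Nat.zero_le _
  have hne : hwSpace lam (plethAct a b (n + 3)) ≠ ⊥ := by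
    intro h
    apply hz
    rw [plethMult, h, finrank_bot]
  obtain ⟨x, hx, hx0⟩ := Submodule.exists_mem_ne_zero_of_ne_bot hne
  have hanti := hw_antitone hx hx0
  have hsum : ∑ i, lam i = a * b := hw_sum hx hx0
  have hle : a ≤ b := by
    have h1 : (a : ℝ) ≤ (1 + δ) * a := by nlinarith [Nat.cast_nonneg (α := ℝ) a]
    exact_mod_cast h1.trans hab
  rcases le_total (C1 * a) b with hc | hc
  · have h1 : (lam (Fin.last _) : ℝ) ≤ lam 1 := by exact_mod_cast hanti _ _ (Fin.le_last _)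
    have h2 : (lam (Fin.last _) : ℝ) ≤ lam 2 := by exact_mod_cast hanti _ _ (Fin.le_last _)
    exact hlarge a b lam (by omega) hc hle (hlam.trans h1) (hlam.trans h2)
  obtain ⟨k, c, h, s, hk, hKB, hKa, hKb, hX, hh, hs, hL⟩ := hnum a b (by omega) hab hc
  obtain ⟨B, hB⟩ : ∃ B, B = k * nn (n + 2) := ⟨_, rfl⟩
  obtain ⟨X, hXd⟩ : ∃ X, X = 3 * (k * nn (n + 2) * c) + k * N1 := ⟨_, rfl⟩
  have h7 := hV7 k c
  rw [← hXd] at h7 hX
  rw [← hB] at hs hKB hKb hL h7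
  have h8 : s ^ B ≤ Module.finrank ℂ (Pleth B c (n + 3)) := dim_ge hh hs
  have h9 := hL _ (plethMult_le_fac a b (n + 2) lam)
  have h10 : plethMult a b (n + 3) lam * (B * c + 1) ^ ((n + 3) * (n + 3)) ≤
      (B * c + 1) ^ ((n + 3) * (n + 3)) *
        plethMult B (3 * (n + 3) * c + N0) (n + 3) (X • om (n + 3) (n + 3)) :=
    h9.trans (h8.trans h7)
  have h11 : plethMult a b (n + 3) lam ≤
      plethMult B (3 * (n + 3) * c + N0) (n + 3) (X • om (n + 3) (n + 3)) := by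
    rw [Nat.mul_comm] at h10
    exact Nat.le_of_mul_le_mul_left h10 (by positivity)
  have hS : plethMult B (3 * (n + 3) * c + N0) (n + 3) (X • om (n + 3) (n + 3)) ≠ 0 := by
    intro h0
    rw [h0] at h11
    exact hz (Nat.le_zero.1 h11)
  have hne' : hwSpace (X • om (n + 3) (n + 3))
      (plethAct B (3 * (n + 3) * c + N0) (n + 3)) ≠ ⊥ := by
    intro h
    apply hS
    rw [plethMult, h, finrank_bot]
  obtain ⟨y, hy, hy0⟩ := Submodule.exists_mem_ne_zero_of_ne_bot hne'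
  have hsum' : ∑ i, (X • om (n + 3) (n + 3)) i = B * (3 * (n + 3) * c + N0) := hw_sum hy hy0
  have hom : ∀ i, (X • om (n + 3) (n + 3)) i = X := by
    intro i
    have hi : om (n + 3) (n + 3) i = 1 := if_pos i.2
    rw [Pi.smul_apply, hi, smul_eq_mul, mul_one]
  have hXs : (n + 3) * X = (3 * (n + 3) * c + N0) * B := by
    rw [Finset.sum_congr rfl (fun i _ => hom i), Finset.sum_const, Finset.card_univ,
      Fintype.card_fin, smul_eq_mul] at hsum'
    rw [hsum', Nat.mul_comm]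
  have hmem : n + 3 ∈ Finset.Icc 1 (n + 3) := Finset.mem_Icc.2 ⟨by omega, le_refl _⟩
  have hlast : gap lam (n + 3) = lam (Fin.last _) := by
    unfold gap ext
    rw [dif_pos (show n + 3 - 1 < n + 3 by omega), dif_neg (lt_irrefl _), Nat.sub_zero]
    rfl
  have hgap : X + K * a ≤ gap lam (n + 3) := by
    rw [hlast]
    exact_mod_cast hX.trans hlam
  have hgw : gw (n + 3) (fun j => if j = n + 3 then X else 0) = X • om (n + 3) (n + 3) := by
    funext k
    rw [hom k]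
    show ∑ j ∈ Finset.Ioc (k : ℕ) (n + 3), (if j = n + 3 then X else 0) = X
    rw [Finset.sum_ite_eq', if_pos (Finset.mem_Ioc.2 ⟨k.2, le_refl _⟩)]
  have hdv : n + 3 ∣ B := by
    rw [hB]
    exact hk
  have hu1 : ∀ j, (fun j => if j = n + 3 then X else 0) j ≤ gap lam j := by
    intro j
    show (if j = n + 3 then X else 0) ≤ gap lam j
    by_cases hj : j = n + 3
    · rw [if_pos hj, hj]
      omega
    · rw [if_neg hj]
      exact Nat.zero_le _
  have hu2 : ∑ j ∈ Finset.Icc 1 (n + 3), j * (fun j => if j = n + 3 then X else 0) j =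
      (3 * (n + 3) * c + N0) * B := by
    rw [Finset.sum_eq_single (n + 3)]
    · show (n + 3) * (if n + 3 = n + 3 then X else 0) = _
      rw [if_pos rfl, hXs]
    · intro j _ hj
      show j * (if j = n + 3 then X else 0) = 0
      rw [if_neg hj, mul_zero]
    · intro h
      exact absurd hmem h
  have hu3 : ∑ j ∈ Finset.Icc 1 (n + 3), j * gap lam j = a * b := by
    rw [sum_gap hanti, hsum]
  have hu4 : (fun j => if j = n + 3 then X else 0) (n + 3) + K * a ≤ gap lam (n + 3) := by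
    show (if n + 3 = n + 3 then X else 0) + K * a ≤ gap lam (n + 3)
    rw [if_pos rfl]
    exact hgap
  have hfin := hcore a b B (3 * (n + 3) * c + N0) (plethMult a b (n + 3) lam)
    (fun j => if j = n + 3 then X else 0) (gap lam) hdv hKB hKa hKb hu1 hu2 hu3 hu4
    (by rw [hgw]; exact h11)
  rwa [gw_gap hanti] at hfin

end Vale.Agent.P181.VT
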