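import Vale.Agent.P181.R2.H130.V9
import Vale.Agent.P181.R2.H415.NumV
import Vale.Agent.P181.R2.H959.VSeven

/-!
# P181: Theorem V, unconditional
-/

set_option autoImplicit false

open scoped TensorProduct

namespace Vale.Agent.P181.VT

open Vale.Agent.P181 Vale.Agent.P181.H280 Vale.Agent.P181.FR

/-- **Theorem V.** Foulkes' inequality for `a ≥ A`, `b ≥ (1 + δ) a` and all partitions with at most
`n + 3` rows whose last row is at least `κ a b`. -/
theorem nine (n : ℕ) {δ κ : ℝ} (hδ : 0 < δ) (hκ : 0 < κ) : ∃ A : ℕ,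
    ∀ (a b : ℕ) (lam : Fin (n + 3) → ℕ), A ≤ a → (1 + δ) * a ≤ b →
    κ * (a * b) ≤ lam (Fin.last _) →
    plethMult a b (n + 3) lam ≤ plethMult b a (n + 3) lam :=
  v9_of seven (fun n _ _ h1 h2 K C1 N0 N1 N hN => numV n h1 h2 K C1 N0 N1 N hN) n hδ hκ

end Vale.Agent.P181.VT
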